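import Vale.Agent.P037h10.Forced
import Mathlib.Data.Fin.Tuple.Sort
import Mathlib.Data.Fintype.BigOperators

open Finset

namespace Vale.Agent.P037h10

variable {m b : ℕ}

def idxEquiv (m b : ℕ) : Idx m b ≃
    (Pos m b × Fin (m + 1)) ⊕ (Pos m b ⊕ (Pos m b ⊕ ((Fin (m + 1) × Fin (b + 2) × Pos m b) ⊕
      Pos m b))) where
  toFun
    | .N x j => .inl (x, j)
    | .S t => .inr (.inl t)
    | .S2 t => .inr (.inr (.inl t))
    | .G l s t => .inr (.inr (.inr (.inl (l, s, t))))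
    | .V t => .inr (.inr (.inr (.inr t)))
  invFun
    | .inl (x, j) => .N x j
    | .inr (.inl t) => .S t
    | .inr (.inr (.inl t)) => .S2 t
    | .inr (.inr (.inr (.inl (l, s, t)))) => .G l s t
    | .inr (.inr (.inr (.inr t))) => .V t
  left_inv := by rintro (⟨⟩ | ⟨⟩ | ⟨⟩ | ⟨⟩ | ⟨⟩) <;> rfl
  right_inv := by rintro (⟨⟨⟩⟩ | ⟨⟨⟩ | ⟨⟨⟩ | ⟨⟨⟨⟩⟩ | ⟨⟩⟩⟩⟩) <;> rfl

noncomputable instance : Fintype (Idx m b) := Fintype.ofEquiv _ (idxEquiv m b).symm

theorem card_idx : Fintype.card (Idx m b) =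
    (b + 2) ^ m * ((m + 1) * (b + 3) + 3) := by
  rw [Fintype.card_congr (idxEquiv m b)]
  simp only [Fintype.card_sum, Fintype.card_prod, Fintype.card_fin, Fintype.card_fun]
  ring

def roleEquiv (m b : ℕ) : TRole m b ≃ Bool ⊕ (Fin 3 ⊕ (Fin (m + 1) × Fin (b + 2))) where
  toFun
    | .root sd => .inl sd
    | .S => .inr (.inl 0)
    | .S2 => .inr (.inl 1)
    | .V => .inr (.inl 2)
    | .G l s => .inr (.inr (l, s))
  invFun
    | .inl sd => .root sd
    | .inr (.inl i) => if i = 0 then .S else if i = 1 then .S2 else .V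
    | .inr (.inr (l, s)) => .G l s
  left_inv := by rintro (⟨⟩ | ⟨⟩ | ⟨⟩ | ⟨⟩ | ⟨⟩) <;> rfl
  right_inv := by
    rintro (h | (i | ⟨l, s⟩))
    · rfl
    · fin_cases i <;> rfl
    · rfl

noncomputable instance : Fintype (TRole m b) := Fintype.ofEquiv _ (roleEquiv m b).symm

theorem card_role : Fintype.card (TRole m b) = (m + 1) * (b + 2) + 5 := by
  rw [Fintype.card_congr (roleEquiv m b)]
  simp only [Fintype.card_sum, Fintype.card_prod, Fintype.card_fin, Fintype.card_bool]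
  ring

theorem exists_sorted {X L : Type*} [Fintype X] [LinearOrder L] (f : X → L) {n : ℕ}
    (h : Fintype.card X = n) : ∃ e : Fin n ≃ X, Monotone (fun i => f (e i)) := by
  classical
  let e0 : Fin n ≃ X := (Fintype.equivFinOfCardEq h).symm
  refine ⟨(Tuple.sort (f ∘ e0)).trans e0, ?_⟩
  exact Tuple.monotone_sort (f ∘ e0)

theorem sum_comp_le {X I : Type*} [Fintype X] [Fintype I] [DecidableEq I] (f : X → I) (a : ℕ)
    (hf : ∀ i, (univ.filter (fun x => f x = i)).card ≤ a) (φ : I → ℕ) :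
    ∑ x, φ (f x) ≤ a * ∑ i, φ i := by
  rw [← Finset.sum_fiberwise_of_maps_to (s := univ) (t := univ) (g := f)
    (fun x _ => mem_univ (f x)), mul_sum]
  refine Finset.sum_le_sum fun i _ => ?_
  rw [Finset.sum_congr rfl (g := fun _ => φ i) (fun x hx => by rw [(mem_filter.1 hx).2]),
    Finset.sum_const, smul_eq_mul]
  exact Nat.mul_le_mul_right _ (hf i)

def emb (z : Fin m → Fin b) : Pos m b := fun i => (z i).castSucc.succ

theorem emb_inj : Function.Injective (emb : (Fin m → Fin b) → Pos m b) := by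
  intro z z' h
  funext i
  have := congrFun h i
  simp only [emb] at this
  exact Fin.castSucc_injective _ (Fin.succ_injective _ this)

theorem emb_mid (z : Fin m → Fin b) (i : Fin m) :
    0 < emb z i ∧ emb z i < Fin.last (b + 1) := by
  constructor
  · exact Fin.succ_pos _
  · rw [Fin.lt_def]
    simp only [emb, Fin.val_succ, Fin.val_castSucc, Fin.val_last]
    have := (z i).2
    omega

theorem card_fiber_le {X I : Type*} [Fintype X] [DecidableEq I] (f : X → I) (g : X → Fin (b + 2))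
    (h : ∀ x x', f x = f x' → g x = g x' → x = x') (i : I) :
    (univ.filter (fun x => f x = i)).card ≤ b + 2 := by
  have h1 : (univ.filter (fun x => f x = i)).card ≤ (univ : Finset (Fin (b + 2))).card := by
    apply Finset.card_le_card_of_injOn g (fun _ _ => mem_univ _)
    intro x hx x' hx' hg
    have hx1 := (mem_filter.1 (mem_coe.1 hx)).2
    have hx2 := (mem_filter.1 (mem_coe.1 hx')).2
    exact h x x' (hx1.trans hx2.symm) hg
  simpa using h1

theorem fiber_chain [DecidableEq (Idx m b)] (j : Fin m) (sd : Bool) (i : Idx m b) :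
    (univ.filter (fun z : Fin m → Fin b => chainEl (emb z) j sd = i)).card ≤ b + 2 := by
  apply card_fiber_le _ (fun z => if h : (j : ℕ) + 1 < m then emb z ⟨j + 1, h⟩ else 0)
  intro z z' h1 h2
  apply emb_inj
  simp only [chainEl, Idx.N.injEq, and_true] at h1
  funext i
  by_cases hi : (i : ℕ) = j + 1
  · have h3 : (j : ℕ) + 1 < m := by rw [← hi]; exact i.2
    simp only [h3, dif_pos] at h2
    have : i = ⟨j + 1, h3⟩ := Fin.ext hi
    rw [this]
    exact h2
  · have := congrFun h1 i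
    rwa [P_of_ne _ _ hi, P_of_ne _ _ hi] at this

theorem fiber_T [DecidableEq (Idx m b)] (κ : TRole m b) (i : Idx m b) :
    (univ.filter (fun t : Pos m b => elT t κ = i)).card ≤ b + 2 := by
  apply card_fiber_le _ (fun t => if h : 0 < m then t ⟨0, h⟩ else 0)
  intro t t' h1 h2
  cases κ with
  | root sd =>
    simp only [elT, Idx.N.injEq, and_true] at h1
    funext i
    by_cases hi : (i : ℕ) = 0
    · have h3 : 0 < m := by rw [← hi]; exact i.2
      simp only [h3, dif_pos] at h2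
      have : i = ⟨0, h3⟩ := Fin.ext hi
      rw [this]
      exact h2
    · have := congrFun h1 i
      rwa [P_of_ne _ _ hi, P_of_ne _ _ hi] at this
  | S => simpa [elT] using h1
  | S2 => simpa [elT] using h1
  | G l s => simpa [elT] using h1
  | V => simpa [elT] using h1

theorem sum_two_le {X Y I : Type*} [Fintype X] [Fintype Y] [Fintype I] [DecidableEq I]
    (f : X → I) (g : Y → I) (a : ℕ)
    (hf : ∀ i, (univ.filter (fun x => f x = i)).card ≤ a)
    (hg : ∀ i, (univ.filter (fun x => g x = i)).card ≤ a) (Δ : I → I → ℕ) :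
    ∑ x, ∑ y, Δ (f x) (g y) ≤ a * a * ∑ r, ∑ c, Δ r c := by
  calc ∑ x, ∑ y, Δ (f x) (g y) ≤ a * ∑ r, ∑ y, Δ r (g y) :=
        sum_comp_le f a hf (fun r => ∑ y, Δ r (g y))
    _ ≤ a * ∑ r, a * ∑ c, Δ r c := by
        refine Nat.mul_le_mul_left _ (Finset.sum_le_sum fun r _ => ?_)
        exact sum_comp_le g a hg (fun c => Δ r c)
    _ = a * a * ∑ r, ∑ c, Δ r c := by rw [← mul_sum, mul_assoc]

theorem count_main (Δ : Idx m b → Idx m b → ℕ) (q : ℕ)
    (hall : ∀ (z : Fin m → Fin b) (t' t : Pos m b),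
      q ≤ (∑ js : Fin m × Bool, ∑ κ : TRole m b, Δ (chainEl (emb z) js.1 js.2) (elT t κ)) +
        (∑ js : Fin m × Bool, ∑ κ : TRole m b, Δ (elT t' κ) (chainEl (emb z) js.1 js.2)) +
        ∑ ρ : TRole m b, ∑ κ : TRole m b, Δ (elT t' ρ) (elT t κ)) :
    b ^ m * (b + 2) ^ m * (b + 2) ^ m * q ≤
      (2 * m + ((m + 1) * (b + 2) + 5)) ^ 2 * ((b + 2) ^ 2 * (b + 2) ^ m *
        ∑ r, ∑ c, Δ r c) := by
  classical
  set D := ∑ r, ∑ c, Δ r c with hD
  have hT : Fintype.card (Pos m b) = (b + 2) ^ m := by simp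
  have hZ : Fintype.card (Fin m → Fin b) = b ^ m := by simp
  have hZT : b ^ m ≤ (b + 2) ^ m := Nat.pow_le_pow_left (by omega) m
  have t1 : ∀ (js : Fin m × Bool) (κ : TRole m b),
      ∑ z : Fin m → Fin b, ∑ _t' : Pos m b, ∑ t : Pos m b,
        Δ (chainEl (emb z) js.1 js.2) (elT t κ) ≤ (b + 2) ^ 2 * (b + 2) ^ m * D := by
    intro js κ
    have := sum_two_le (fun z : Fin m → Fin b => chainEl (emb z) js.1 js.2)
      (fun t : Pos m b => elT t κ) (b + 2) (fiber_chain js.1 js.2) (fiber_T κ) Δ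
    simp only [Finset.sum_const, Finset.card_univ, hT, smul_eq_mul]
    rw [← mul_sum]
    calc (b + 2) ^ m * ∑ i : Fin m → Fin b, ∑ t, Δ (chainEl (emb i) js.1 js.2) (elT t κ)
        ≤ (b + 2) ^ m * ((b + 2) * (b + 2) * D) := Nat.mul_le_mul_left _ this
      _ = (b + 2) ^ 2 * (b + 2) ^ m * D := by ring
  have t2 : ∀ (js : Fin m × Bool) (κ : TRole m b),
      ∑ z : Fin m → Fin b, ∑ t' : Pos m b, ∑ _t : Pos m b,
        Δ (elT t' κ) (chainEl (emb z) js.1 js.2) ≤ (b + 2) ^ 2 * (b + 2) ^ m * D := by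
    intro js κ
    have := sum_two_le (fun t : Pos m b => elT t κ)
      (fun z : Fin m → Fin b => chainEl (emb z) js.1 js.2)
      (b + 2) (fiber_T κ) (fiber_chain js.1 js.2) Δ
    simp only [Finset.sum_const, Finset.card_univ, hT, smul_eq_mul]
    simp only [← mul_sum]
    rw [Finset.sum_comm]
    calc (b + 2) ^ m * ∑ i : Pos m b, ∑ z : Fin m → Fin b,
          Δ (elT i κ) (chainEl (emb z) js.1 js.2)
        ≤ (b + 2) ^ m * ((b + 2) * (b + 2) * D) := Nat.mul_le_mul_left _ this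
      _ = (b + 2) ^ 2 * (b + 2) ^ m * D := by ring
  have t3 : ∀ (ρ κ : TRole m b),
      ∑ _z : Fin m → Fin b, ∑ t' : Pos m b, ∑ t : Pos m b,
        Δ (elT t' ρ) (elT t κ) ≤ (b + 2) ^ 2 * (b + 2) ^ m * D := by
    intro ρ κ
    have := sum_two_le (fun t : Pos m b => elT t ρ) (fun t : Pos m b => elT t κ)
      (b + 2) (fiber_T ρ) (fiber_T κ) Δ
    simp only [Finset.sum_const, Finset.card_univ, hZ, smul_eq_mul]
    calc b ^ m * ∑ i : Pos m b, ∑ z : Pos m b, Δ (elT i ρ) (elT z κ)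
        ≤ (b + 2) ^ m * ((b + 2) * (b + 2) * D) := Nat.mul_le_mul hZT this
      _ = (b + 2) ^ 2 * (b + 2) ^ m * D := by ring
  have hsum : ∑ _z : Fin m → Fin b, ∑ _t' : Pos m b, ∑ _t : Pos m b, q ≤
      ∑ z : Fin m → Fin b, ∑ t' : Pos m b, ∑ t : Pos m b,
      ((∑ js : Fin m × Bool, ∑ κ : TRole m b, Δ (chainEl (emb z) js.1 js.2) (elT t κ)) +
        (∑ js : Fin m × Bool, ∑ κ : TRole m b, Δ (elT t' κ) (chainEl (emb z) js.1 js.2)) +
        ∑ ρ : TRole m b, ∑ κ : TRole m b, Δ (elT t' ρ) (elT t κ)) :=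
    Finset.sum_le_sum fun z _ => Finset.sum_le_sum fun t' _ => Finset.sum_le_sum fun t _ =>
      hall z t' t
  simp only [Finset.sum_add_distrib] at hsum
  have swap3 : ∀ {J K : Type} [Fintype J] [Fintype K]
      (F : J → K → (Fin m → Fin b) → Pos m b → Pos m b → ℕ) (W : ℕ),
      (∀ j k, ∑ z, ∑ t', ∑ t, F j k z t' t ≤ W) →
      ∑ z, ∑ t', ∑ t, ∑ j, ∑ k, F j k z t' t ≤ Fintype.card J * Fintype.card K * W := by
    intro J K _ _ F W hW
    have e : ∑ z, ∑ t', ∑ t, ∑ j, ∑ k, F j k z t' t =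
        ∑ j, ∑ k, ∑ z, ∑ t', ∑ t, F j k z t' t := by
      have e1 : ∀ z t', ∑ t, ∑ j, ∑ k, F j k z t' t = ∑ j, ∑ k, ∑ t, F j k z t' t := by
        intro z t'
        rw [Finset.sum_comm]
        exact Finset.sum_congr rfl fun j _ => Finset.sum_comm
      have e2 : ∀ z, ∑ t', ∑ t, ∑ j, ∑ k, F j k z t' t =
          ∑ j, ∑ k, ∑ t', ∑ t, F j k z t' t := by
        intro z
        simp only [e1]
        rw [Finset.sum_comm]
        exact Finset.sum_congr rfl fun j _ => Finset.sum_comm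
      simp only [e2]
      rw [Finset.sum_comm]
      exact Finset.sum_congr rfl fun j _ => Finset.sum_comm
    rw [e]
    calc ∑ j, ∑ k, ∑ z, ∑ t', ∑ t, F j k z t' t ≤ ∑ _j : J, ∑ _k : K, W :=
          Finset.sum_le_sum fun j _ => Finset.sum_le_sum fun k _ => hW j k
      _ = Fintype.card J * Fintype.card K * W := by
          simp only [Finset.sum_const, Finset.card_univ, smul_eq_mul]; ring
  have s1 := swap3 (fun (js : Fin m × Bool) (κ : TRole m b) z _ t =>
    Δ (chainEl (emb z) js.1 js.2) (elT t κ)) _ t1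
  have s2 := swap3 (fun (js : Fin m × Bool) (κ : TRole m b) z t' _ =>
    Δ (elT t' κ) (chainEl (emb z) js.1 js.2)) _ t2
  have s3 := swap3 (fun (ρ κ : TRole m b) _ t' t => Δ (elT t' ρ) (elT t κ)) _ t3
  have hJ : Fintype.card (Fin m × Bool) = 2 * m := by
    simp [mul_comm]
  rw [hJ, card_role] at s1 s2
  rw [card_role] at s3
  have hl : ∑ _z : Fin m → Fin b, ∑ _t' : Pos m b, ∑ _t : Pos m b, q =
      b ^ m * (b + 2) ^ m * (b + 2) ^ m * q := by
    simp only [Finset.sum_const, Finset.card_univ, hT, hZ, smul_eq_mul]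
    ring
  rw [hl] at hsum
  set W := (b + 2) ^ 2 * (b + 2) ^ m * D
  set R := (m + 1) * (b + 2) + 5
  calc b ^ m * (b + 2) ^ m * (b + 2) ^ m * q ≤ 2 * m * R * W + 2 * m * R * W + R * R * W :=
        hsum.trans (Nat.add_le_add (Nat.add_le_add s1 s2) s3)
    _ ≤ (2 * m + R) ^ 2 * W := by
        nlinarith [Nat.zero_le (m * m * W)]

end Vale.Agent.P037h10
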