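import Mathlib.Tactic

namespace Vale.Agent.P037h10

section Nodes

variable {x0 x1 x2 x3 x4 y0 y1 y2 y3 y4 : ℕ → ℕ}
variable {j0 j1 j2 j3 j4 k0 k1 k2 k3 k4 l l' s s' : ℕ}

theorem core_half
    (hx0 : j0 = l ∨ (j0 = l + 1 ∧ x0 l = s)) (hx1 : j1 = l ∨ (j1 = l + 1 ∧ x1 l = s))
    (hx2 : j2 = l ∨ (j2 = l + 1 ∧ x2 l = s))
    (hy0 : k0 = l' ∨ (k0 = l' + 1 ∧ y0 l' = s')) (hy1 : k1 = l' ∨ (k1 = l' + 1 ∧ y1 l' = s'))
    (hy2 : k2 = l' ∨ (k2 = l' + 1 ∧ y2 l' = s'))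
    (compat : l = l' → s = s')
    (cy : ∀ k, (∀ i, i < k → y0 i = y2 i) → ∀ i, i < k → y0 i = y1 i)
    (a10 : ∀ i, i < j1 → i < k0 → x1 i = y0 i) (a12 : ∀ i, i < j1 → i < k2 → x1 i = y2 i)
    {d : ℕ} (hd1 : d < j1) (hd2 : d < k1) (hd : x1 d ≠ y1 d) (hj0 : j0 ≤ d) : False := by
  have hl : j0 = l := by omega
  have hj1 : j1 = l + 1 := by omega
  have hdl : d = l := by omega
  have hs : x1 l = s := by omega
  subst hdl
  by_cases hk0 : k0 ≤ d
  · have h1 : k0 = l' := by omega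
    have h2 : k1 = l' + 1 := by omega
    have h3 : d = l' := by omega
    have h4 : y1 l' = s' := by omega
    subst h3
    by_cases hk2 : k2 ≤ d
    · have := compat rfl
      omega
    · have h5 : k2 = d + 1 := by omega
      have h6 : y2 d = s' := by omega
      have := a12 d hd1 (by omega)
      omega
  · by_cases hk2 : k2 ≤ d
    · have h1 : k2 = l' := by omega
      have h2 : k1 = l' + 1 := by omega
      have h3 : d = l' := by omega
      have h4 : y1 l' = s' := by omega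
      subst h3
      have h5 : k0 = d + 1 := by omega
      have h6 : y0 d = s' := by omega
      have := a10 d hd1 (by omega)
      omega
    · have h1 : ∀ i, i < d + 1 → y0 i = y2 i := by
        intro i hi
        rw [← a10 i (by omega) (by omega), ← a12 i (by omega) (by omega)]
      have h2 := cy _ h1 d (by omega)
      have h3 := a10 d hd1 (by omega)
      omega

theorem core_nodes
    (hx0 : j0 = l ∨ (j0 = l + 1 ∧ x0 l = s)) (hx1 : j1 = l ∨ (j1 = l + 1 ∧ x1 l = s))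
    (hx2 : j2 = l ∨ (j2 = l + 1 ∧ x2 l = s))
    (hy0 : k0 = l' ∨ (k0 = l' + 1 ∧ y0 l' = s')) (hy1 : k1 = l' ∨ (k1 = l' + 1 ∧ y1 l' = s'))
    (hy2 : k2 = l' ∨ (k2 = l' + 1 ∧ y2 l' = s'))
    (compat : l = l' → s = s')
    (cx : ∀ k, (∀ i, i < k → x0 i = x2 i) → ∀ i, i < k → x0 i = x1 i)
    (cy : ∀ k, (∀ i, i < k → y0 i = y2 i) → ∀ i, i < k → y0 i = y1 i)
    (a00 : ∀ i, i < j0 → i < k0 → x0 i = y0 i)
    (a01 : ∀ i, i < j0 → i < k1 → x0 i = y1 i)
    (a10 : ∀ i, i < j1 → i < k0 → x1 i = y0 i) (a12 : ∀ i, i < j1 → i < k2 → x1 i = y2 i)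
    (a21 : ∀ i, i < j2 → i < k1 → x2 i = y1 i)
    (n11 : ¬ ∀ i, i < j1 → i < k1 → x1 i = y1 i) : False := by
  push Not at n11
  obtain ⟨d, hd1, hd2, hd⟩ := n11
  by_cases hj0 : j0 ≤ d
  · exact core_half hx0 hx1 hx2 hy0 hy1 hy2 compat cy a10 a12 hd1 hd2 hd hj0
  · have hk0 : k0 ≤ d := by
      by_contra hk0
      have e1 := a00 d (by omega) (by omega)
      have e2 := a01 d (by omega) (by omega)
      have e3 := a10 d (by omega) (by omega)
      omega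
    exact core_half hy0 hy1 hy2 hx0 hx1 hx2 (fun h => (compat h.symm).symm) cx
      (fun i h1 h2 => (a01 i h2 h1).symm) (fun i h1 h2 => (a21 i h2 h1).symm) hd2 hd1
      (Ne.symm hd) hk0

theorem two_nodes
    (p : ∀ i, i < j0 → i < k1 → x0 i = y1 i) (np : ¬ ∀ i, i < j0 → i < k0 → x0 i = y0 i)
    (q : ∀ i, i < j1 → i < k0 → x1 i = y0 i) (nq : ¬ ∀ i, i < j1 → i < k1 → x1 i = y1 i) :
    ∃ f, f < k0 ∧ f < k1 ∧ f < j0 ∧ f < j1 ∧ y0 f ≠ y1 f := by
  push Not at np nq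
  obtain ⟨d, hd1, hd2, hd⟩ := np
  obtain ⟨e, he1, he2, he⟩ := nq
  have hex : ∃ f, f < k0 ∧ f < k1 ∧ y0 f ≠ y1 f := by
    by_contra hcon
    push Not at hcon
    rcases le_total k0 k1 with h | h
    · have h1 := p d hd1 (by omega)
      have h2 := hcon d hd2 (by omega)
      omega
    · have h1 := q e he1 (by omega)
      have h2 := hcon e (by omega) he2
      omega
  classical
  let f := Nat.find hex
  obtain ⟨h1, h2, h3⟩ : f < k0 ∧ f < k1 ∧ y0 f ≠ y1 f := Nat.find_spec hex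
  have hmin : ∀ i, i < f → y0 i = y1 i := by
    intro i hi
    have := Nat.find_min hex hi
    by_contra hne
    exact this ⟨by omega, by omega, hne⟩
  refine ⟨f, h1, h2, ?_, ?_, h3⟩
  · by_contra hj
    have h4 := hmin d (by omega)
    have h5 := p d hd1 (by omega)
    omega
  · by_contra hj
    have h4 := hmin e (by omega)
    have h5 := q e he1 (by omega)
    omega

theorem l4_nodes
    (hx0 : j0 = l ∨ (j0 = l + 1 ∧ x0 l = s)) (hx1 : j1 = l ∨ (j1 = l + 1 ∧ x1 l = s))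
    (hx4 : j4 = l ∨ (j4 = l + 1 ∧ x4 l = s))
    (a01 : ∀ i, i < j0 → i < k1 → x0 i = y1 i) (a03 : ∀ i, i < j0 → i < k3 → x0 i = y3 i)
    (a13 : ∀ i, i < j1 → i < k3 → x1 i = y3 i) (n11 : ¬ ∀ i, i < j1 → i < k1 → x1 i = y1 i)
    (a41 : ∀ i, i < j4 → i < k1 → x4 i = y1 i) (n43 : ¬ ∀ i, i < j4 → i < k3 → x4 i = y3 i) :
    False := by
  obtain ⟨f, h1, h2, h3, h4, h5⟩ := two_nodes a13 n11 a41 n43
  have h0 : j0 ≤ f := by
    by_contra h
    have e1 := a01 f (by omega) h1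
    have e2 := a03 f (by omega) h2
    omega
  have hf : f = l := by omega
  subst hf
  have e1 := a13 f h3 h2
  have e2 := a41 f h4 h1
  omega

theorem l5_nodes
    (n11 : ¬ ∀ i, i < j1 → i < k1 → x1 i = y1 i)
    (n34 : ¬ ∀ i, i < j3 → i < k4 → x3 i = y4 i)
    (n43 : ¬ ∀ i, i < j4 → i < k3 → x4 i = y3 i)
    (a13 : ∀ i, i < j1 → i < k3 → x1 i = y3 i) (a14 : ∀ i, i < j1 → i < k4 → x1 i = y4 i)
    (a31 : ∀ i, i < j3 → i < k1 → x3 i = y1 i) (a33 : ∀ i, i < j3 → i < k3 → x3 i = y3 i)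
    (a41 : ∀ i, i < j4 → i < k1 → x4 i = y1 i) (a44 : ∀ i, i < j4 → i < k4 → x4 i = y4 i) :
    False := by
  obtain ⟨f, h1, h2, h3, h4, h5⟩ := two_nodes a13 n11 a41 n43
  obtain ⟨g, g1, g2, g3, g4, g5⟩ := two_nodes a14 n11 a31 n34
  have e3 : j3 ≤ f := by
    by_contra h
    have e1 := a31 f (by omega) h1
    have e2 := a33 f (by omega) h2
    omega
  have e4 : j4 ≤ g := by
    by_contra h
    have e1 := a41 g (by omega) g1
    have e2 := a44 g (by omega) g2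
    omega
  omega

theorem pair_level {x : ℕ → ℕ} {j a a' s s' : ℕ} (hne : ¬ (a = a' ∧ s = s'))
    (h : j = a ∨ (j = a + 1 ∧ x a = s)) (h' : j = a' ∨ (j = a' + 1 ∧ x a' = s')) :
    j = max a a' := by
  rcases h with h | ⟨h, h1⟩ <;> rcases h' with h' | ⟨h', h1'⟩
  · omega
  · omega
  · omega
  · exfalso
    have : a = a' := by omega
    subst this
    exact hne ⟨rfl, by omega⟩

theorem digit_split {x x' : ℕ → ℕ} {j a1 s1 a s : ℕ}
    (h0 : j = a1 ∨ (j = a1 + 1 ∧ x a1 = s1)) (n1 : ¬ (j = a1 ∨ (j = a1 + 1 ∧ x' a1 = s1)))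
    (k0 : j = a ∨ (j = a + 1 ∧ x a = s)) (k1 : j = a ∨ (j = a + 1 ∧ x' a = s)) :
    a = j ∧ a1 + 1 = j := by
  push Not at n1
  obtain ⟨n1, n2⟩ := n1
  have h1 : j = a1 + 1 ∧ x a1 = s1 := by omega
  obtain ⟨h1, h2⟩ := h1
  have h3 := n2 h1
  rcases k0 with k0 | ⟨k0, k2⟩
  · omega
  · rcases k1 with k1 | ⟨k1, k3⟩
    · omega
    · exfalso
      have : a = a1 := by omega
      subst this
      omega

end Nodes

end Vale.Agent.P037h10
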