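import Vale.Agent.P037h10.Idx
import Vale.Agent.P037h10.Nodes

namespace Vale.Agent.P037h10

variable {m b : ℕ}

theorem fin_le_m {m : ℕ} (j : Fin (m + 1)) : (j : ℕ) ≤ m := Nat.lt_succ_iff.1 j.2

theorem core {r0 r1 r2 c0 c1 c2 : Idx m b} {l l' : Fin (m + 1)} {s s' : Fin (b + 2)}
    {tg th : Pos m b}
    (kr0 : kd r0 ≤ kd r1) (kr1 : kd r1 ≤ kd r2) (kr2 : kd r2 ≤ 2)
    (kc0 : kd c0 ≤ kd c1) (kc1 : kd c1 ≤ kd c2) (kc2 : kd c2 ≤ 2)
    (cr : Conv r0 r1 r2) (cc : Conv c0 c1 c2)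
    (g0 : Adj r0 (.G l s tg)) (g1 : Adj r1 (.G l s tg)) (g2 : Adj r2 (.G l s tg))
    (h0 : Adj (.G l' s' th) c0) (h1 : Adj (.G l' s' th) c1) (h2 : Adj (.G l' s' th) c2)
    (hc : Adj (.G l' s' th) (.G l s tg : Idx m b))
    (a00 : Adj r0 c0) (a01 : Adj r0 c1) (a02 : Adj r0 c2)
    (a10 : Adj r1 c0) (n11 : ¬ Adj r1 c1) (a12 : Adj r1 c2)
    (a20 : Adj r2 c0) (a21 : Adj r2 c1) (a22 : Adj r2 c2) :
    (∃ x y j k, r0 = .N x j ∧ c0 = .N y k ∧ (j : ℕ) = m ∧ (k : ℕ) = m) ∧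
      kd r1 = 1 ∧ kd r2 = 2 ∧ kd c1 = 1 ∧ kd c2 = 2 := by
  rcases kd_body (show kd r1 ≤ 2 by omega) with ⟨x1, j1, rfl⟩ | ⟨t1, rfl⟩ | ⟨t1, rfl⟩
  · rcases kd_body (show kd c1 ≤ 2 by omega) with ⟨y1, k1, rfl⟩ | ⟨u1, rfl⟩ | ⟨u1, rfl⟩
    · exfalso
      obtain ⟨x0, j0, rfl⟩ := kd_N (show kd r0 = 0 by simpa using kr0)
      obtain ⟨y0, k0, rfl⟩ := kd_N (show kd c0 = 0 by simpa using kc0)
      have hall : (j0 : ℕ) = m → (j1 : ℕ) = m → (k0 : ℕ) = m → (k1 : ℕ) = m → False := by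
        intro e1 e2 e3 e4
        simp only [Adj] at a00 a01 a10 n11
        apply n11
        intro i hi1 hi2
        rw [a10 i (by omega) (by omega), ← a00 i (by omega) (by omega),
          a01 i (by omega) (by omega)]
      have hj0 := fin_le_m j0
      have hj1 := fin_le_m j1
      have hk0 := fin_le_m k0
      have hk1 := fin_le_m k1
      rcases kd_body kr2 with ⟨x2, j2, rfl⟩ | ⟨u2, rfl⟩ | ⟨u2, rfl⟩
      · rcases kd_body kc2 with ⟨y2, k2, rfl⟩ | ⟨u2, rfl⟩ | ⟨u2, rfl⟩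
        · simp only [Adj] at g0 g1 g2 h0 h1 h2 hc a00 a01 a10 a12 a21 n11
          exact core_nodes g0 g1 g2 h0 h1 h2 (fun h => (hc h.symm).symm)
            (cr _ _ _ _ _ _ rfl rfl rfl) (cc _ _ _ _ _ _ rfl rfl rfl) a00 a01 a10 a12 a21 n11
        · simp only [Adj] at h0 h1 h2 a02 a12
          exact hall a02 a12 (by omega) (by omega)
        · simp only [Adj] at h0 h1 h2 a02 a12
          exact hall a02 a12 (by omega) (by omega)
      · simp only [Adj] at g0 g1 g2 a20 a21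
        exact hall (by omega) (by omega) a20 a21
      · simp only [Adj] at g0 g1 g2 a20 a21
        exact hall (by omega) (by omega) a20 a21
    · exfalso
      rcases kd_body kc2 with ⟨y2, k2, rfl⟩ | ⟨u2, rfl⟩ | ⟨u2, rfl⟩
      · simp at kc1
      · simp only [Adj] at n11 a12; exact n11 a12
      · simp only [Adj] at n11 a12; exact n11 a12
    · exfalso
      rcases kd_body kc2 with ⟨y2, k2, rfl⟩ | ⟨u2, rfl⟩ | ⟨u2, rfl⟩
      · simp at kc1
      · simp at kc1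
      · simp only [Adj] at n11 a12; exact n11 a12
  · rcases kd_body (show kd c1 ≤ 2 by omega) with ⟨y1, k1, rfl⟩ | ⟨u1, rfl⟩ | ⟨u1, rfl⟩
    · exfalso
      rcases kd_body kr2 with ⟨y2, k2, rfl⟩ | ⟨u2, rfl⟩ | ⟨u2, rfl⟩
      · simp at kr1
      · simp only [Adj] at n11 a21; exact n11 a21
      · simp only [Adj] at n11 a21; exact n11 a21
    · rcases kd_body (show kd r0 ≤ 2 by omega) with ⟨x0, j0, rfl⟩ | ⟨t0, rfl⟩ | ⟨t0, rfl⟩
      · rcases kd_body (show kd c0 ≤ 2 by omega) with ⟨y0, k0, rfl⟩ | ⟨u0, rfl⟩ | ⟨u0, rfl⟩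
        · rcases kd_body kr2 with ⟨x2, j2, rfl⟩ | ⟨t2, rfl⟩ | ⟨t2, rfl⟩
          · simp at kr1
          · simp [Adj] at a21
          · rcases kd_body kc2 with ⟨x2, j2, rfl⟩ | ⟨u2, rfl⟩ | ⟨u2, rfl⟩
            · simp at kc1
            · simp [Adj] at a12
            · simp only [Adj] at a01 a10
              exact ⟨⟨x0, y0, j0, k0, rfl, rfl, a01, a10⟩, by simp⟩
        · simp [Adj] at a10
        · simp at kc0
      · simp [Adj] at a01
      · simp at kr0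
    · simp [Adj] at n11
  · rcases kd_body (show kd c1 ≤ 2 by omega) with ⟨y1, k1, rfl⟩ | ⟨u1, rfl⟩ | ⟨u1, rfl⟩
    · exfalso
      rcases kd_body kr2 with ⟨y2, k2, rfl⟩ | ⟨u2, rfl⟩ | ⟨u2, rfl⟩
      · simp at kr1
      · simp at kr1
      · simp only [Adj] at n11 a21; exact n11 a21
    · simp [Adj] at n11
    · simp [Adj] at n11

theorem lem2 {r0 r1 r2 r3 r4 c1 c2 c3 c4 : Idx m b}
    (kr0 : kd r0 ≤ kd r1) (kr1 : kd r1 ≤ kd r2) (kr2 : kd r2 ≤ 2)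
    (kr3 : kd r3 ≤ kd r4) (kr4 : kd r4 ≤ 3)
    (kc1 : kd c1 ≤ kd c2) (kc2 : kd c2 ≤ 3) (kc3 : kd c3 = 3) (kc4 : kd c4 = 3)
    (cr : Conv r0 r1 r2)
    (a01 : Adj r0 c1) (a02 : Adj r0 c2) (a03 : Adj r0 c3) (a04 : Adj r0 c4)
    (n11 : ¬ Adj r1 c1) (a12 : Adj r1 c2) (a13 : Adj r1 c3) (a14 : Adj r1 c4)
    (a21 : Adj r2 c1) (a22 : Adj r2 c2) (a23 : Adj r2 c3) (a24 : Adj r2 c4)
    (a31 : Adj r3 c1) (a32 : Adj r3 c2) (a33 : Adj r3 c3) (n34 : ¬ Adj r3 c4)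
    (a41 : Adj r4 c1) (a42 : Adj r4 c2) (n43 : ¬ Adj r4 c3) (a44 : Adj r4 c4) : False := by
  obtain ⟨a, s, t3, rfl⟩ := kd_G kc3
  obtain ⟨a', s', t4, rfl⟩ := kd_G kc4
  have hne : ¬ ((a : ℕ) = a' ∧ (s : ℕ) = s') := by
    rintro ⟨h1, h2⟩
    have h1' : a = a' := Fin.ext h1
    have h2' : s = s' := Fin.ext h2
    subst h1' h2'
    apply n34
    revert a33
    cases r3 <;> simp [Adj]
  have hN : ∀ r : Idx m b, kd r ≤ 2 → Adj r (.G a s t3) → Adj r (.G a' s' t4) →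
      ∃ x j, r = .N x j := by
    intro r hr h1 h2
    rcases kd_body hr with h | ⟨t, rfl⟩ | ⟨t, rfl⟩
    · exact h
    · simp only [Adj] at h1 h2; omega
    · simp only [Adj] at h1 h2; omega
  obtain ⟨x0, j0, rfl⟩ := hN r0 (by omega) a03 a04
  obtain ⟨x1, j1, rfl⟩ := hN r1 (by omega) a13 a14
  obtain ⟨x2, j2, rfl⟩ := hN r2 (by omega) a23 a24
  simp only [Adj] at a03 a04 a13 a14 a23 a24
  have hj1 : (j1 : ℕ) = j0 := by
    rw [pair_level hne a03 a04, pair_level hne a13 a14]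
  have hj2 : (j2 : ℕ) = j0 := by
    rw [pair_level hne a03 a04, pair_level hne a23 a24]
  rw [hj1] at a13 a14
  rw [hj2] at a23 a24
  have hconv := cr _ _ _ _ _ _ rfl rfl rfl
  cases c1 with
  | N y1 k1 =>
    simp only [Adj] at a01 n11 a21
    apply n11
    intro i hi1 hi2
    rw [← hconv (min (j0 : ℕ) k1) ?_ i (by omega), a01 i (by omega) hi2]
    intro i hi
    rw [a01 i (by omega) (by omega), a21 i (by omega) (by omega)]
  | S t =>
    simp only [Adj] at a01 n11; omega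
  | S2 t =>
    simp only [Adj] at a01 n11; omega
  | V t => simp at kc1; omega
  | G a1 s1 t1 =>
    obtain ⟨a2, s2, t2, rfl⟩ := kd_G (show kd c2 = 3 by simp at kc1; omega)
    simp only [Adj] at a01 n11 a02 a12
    have hj0 := fin_le_m j0
    rw [hj1] at n11 a12
    obtain ⟨g2, g1⟩ := digit_split a01 n11 a02 a12
    obtain ⟨g3, -⟩ := digit_split a01 n11 a03 a13
    obtain ⟨g4, -⟩ := digit_split a01 n11 a04 a14
    clear a01 n11 a02 a12 a03 a13 a04 a14 a21 a22 a23 a24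
    cases r3 with
    | N x3 j3 =>
      simp only [Adj] at a31 a33 n34
      omega
    | S t => simp only [Adj] at a31 a33 n34; omega
    | S2 t => simp only [Adj] at a31 a33 n34; omega
    | V t => simp at kr3; omega
    | G l3 q3 t3 =>
      obtain ⟨l4, q4, t4, rfl⟩ := kd_G (show kd r4 = 3 by simp at kr3; omega)
      simp only [Adj] at a32 a33 n34 a42 n43
      push Not at n34 n43
      omega

theorem conv_contra {x0 x1 x2 y1 : Pos m b} {j0 j1 j2 k1 : Fin (m + 1)}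
    (cr : Conv (.N x0 j0) (.N x1 j1) (.N x2 j2)) (h0 : (j0 : ℕ) = m) (h1 : (j1 : ℕ) = m)
    (h2 : (j2 : ℕ) = m) (a01 : Adj (.N x0 j0) (.N y1 k1)) (n11 : ¬ Adj (.N x1 j1) (.N y1 k1))
    (a21 : Adj (.N x2 j2) (.N y1 k1)) : False := by
  have hconv := cr _ _ _ _ _ _ rfl rfl rfl
  have hk := fin_le_m k1
  simp only [Adj] at a01 n11 a21
  apply n11
  intro i hi1 hi2
  rw [← hconv k1 ?_ i hi2, a01 i (by omega) hi2]
  intro i hi
  rw [a01 i (by omega) hi, a21 i (by omega) hi]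

theorem lem4 {r0 r1 r2 r4 c1 c3 : Idx m b} {a : Fin (m + 1)} {s : Fin (b + 2)} {t : Pos m b}
    (kr0 : kd r0 ≤ kd r1) (kr1 : kd r1 ≤ kd r2) (kr2 : kd r2 ≤ kd r4) (kr4 : kd r4 ≤ 2)
    (kc1 : kd c1 ≤ kd c3) (kc3 : kd c3 ≤ 2) (cr : Conv r0 r1 r2)
    (g0 : Adj r0 (.G a s t)) (g1 : Adj r1 (.G a s t)) (g2 : Adj r2 (.G a s t))
    (g4 : Adj r4 (.G a s t))
    (a01 : Adj r0 c1) (a03 : Adj r0 c3) (n11 : ¬ Adj r1 c1) (a13 : Adj r1 c3)
    (a21 : Adj r2 c1) (a23 : Adj r2 c3) (a41 : Adj r4 c1) (n43 : ¬ Adj r4 c3) : False := by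
  rcases kd_body kc3 with ⟨y3, k3, rfl⟩ | ⟨u3, rfl⟩ | ⟨u3, rfl⟩
  · obtain ⟨y1, k1, rfl⟩ := kd_N (show kd c1 = 0 by simpa using kc1)
    have key : ∀ r : Idx m b, kd r ≤ 2 → Adj r (.N y3 k3) → (k3 : ℕ) ≠ m →
        ∃ x j, r = .N x j := by
      intro r hr h1 h2
      rcases kd_body hr with h | ⟨t, rfl⟩ | ⟨t, rfl⟩
      · exact h
      · exact absurd h1 h2
      · exact absurd h1 h2
    have lev : ∀ (x : Pos m b) (j : Fin (m + 1)), (a : ℕ) = m →
        Adj (.N x j) (.G a s t) → (j : ℕ) = m := by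
      intro x j h1 h2
      have := fin_le_m j
      simp only [Adj] at h2
      omega
    rcases kd_body kr4 with ⟨x4, j4, rfl⟩ | ⟨t4, rfl⟩ | ⟨t4, rfl⟩
    · obtain ⟨x2, j2, rfl⟩ := kd_N (show kd r2 = 0 by simpa using kr2)
      obtain ⟨x1, j1, rfl⟩ := kd_N (show kd r1 = 0 by simpa using kr1)
      obtain ⟨x0, j0, rfl⟩ := kd_N (show kd r0 = 0 by simpa using kr0)
      simp only [Adj] at g0 g1 g4 a01 a03 a13 n11 a41 n43
      exact l4_nodes g0 g1 g4 a01 a03 a13 n11 a41 n43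
    · have hk3 : (k3 : ℕ) ≠ m := n43
      have ha : (a : ℕ) = m := g4.1
      obtain ⟨x0, j0, rfl⟩ := key r0 (by omega) a03 hk3
      obtain ⟨x1, j1, rfl⟩ := key r1 (by omega) a13 hk3
      obtain ⟨x2, j2, rfl⟩ := key r2 (by omega) a23 hk3
      exact conv_contra cr (lev _ _ ha g0) (lev _ _ ha g1) (lev _ _ ha g2) a01 n11 a21
    · have hk3 : (k3 : ℕ) ≠ m := n43
      have ha : (a : ℕ) = m := g4.1
      obtain ⟨x0, j0, rfl⟩ := key r0 (by omega) a03 hk3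
      obtain ⟨x1, j1, rfl⟩ := key r1 (by omega) a13 hk3
      obtain ⟨x2, j2, rfl⟩ := key r2 (by omega) a23 hk3
      exact conv_contra cr (lev _ _ ha g0) (lev _ _ ha g1) (lev _ _ ha g2) a01 n11 a21
  · have key : ∀ r : Idx m b, kd r ≤ 1 → Adj r (.S u3) → ∃ x j, r = .N x j ∧ (j : ℕ) = m := by
      intro r hr h1
      rcases kd_body (show kd r ≤ 2 by omega) with ⟨x, j, rfl⟩ | ⟨t, rfl⟩ | ⟨t, rfl⟩
      · exact ⟨x, j, rfl, h1⟩
      · exact absurd h1 (by simp [Adj])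
      · simp at hr
    have hr4 : kd r4 ≤ 1 := by
      rcases kd_body kr4 with ⟨x4, j4, rfl⟩ | ⟨t4, rfl⟩ | ⟨t4, rfl⟩
      · simp
      · simp
      · simp [Adj] at n43
    obtain ⟨x0, j0, rfl, h0⟩ := key r0 (by omega) a03
    obtain ⟨x1, j1, rfl, h1⟩ := key r1 (by omega) a13
    obtain ⟨x2, j2, rfl, h2⟩ := key r2 (by omega) a23
    rcases kd_body (show kd c1 ≤ 2 by omega) with ⟨y1, k1, rfl⟩ | ⟨u1, rfl⟩ | ⟨u1, rfl⟩
    · exact conv_contra cr h0 h1 h2 a01 n11 a21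
    · exact n11 h1
    · exact n11 h1
  · rcases kd_body kr4 with ⟨x4, j4, rfl⟩ | ⟨t4, rfl⟩ | ⟨t4, rfl⟩
    · obtain ⟨x2, j2, rfl⟩ := kd_N (show kd r2 = 0 by simpa using kr2)
      obtain ⟨x1, j1, rfl⟩ := kd_N (show kd r1 = 0 by simpa using kr1)
      obtain ⟨x0, j0, rfl⟩ := kd_N (show kd r0 = 0 by simpa using kr0)
      rcases kd_body (show kd c1 ≤ 2 by omega) with ⟨y1, k1, rfl⟩ | ⟨u1, rfl⟩ | ⟨u1, rfl⟩
      · exact conv_contra cr a03 a13 a23 a01 n11 a21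
      · exact n11 a13
      · exact n11 a13
    · exact n43 trivial
    · exact n43 trivial

theorem lem5_aux {r0 r1 r2 r3 r4 c0 c1 c3 c4 : Idx m b}
    (kr0 : kd r0 ≤ kd r1) (kr1 : kd r1 ≤ kd r2) (kr2 : kd r2 ≤ kd r3) (kr3 : kd r3 ≤ kd r4)
    (kr4 : kd r4 ≤ 2)
    (kc0 : kd c0 ≤ kd c1) (kc1 : kd c1 ≤ kd c3) (kc3 : kd c3 ≤ kd c4) (kc4 : kd c4 ≤ 2)
    (cr : Conv r0 r1 r2)
    (a01 : Adj r0 c1) (a03 : Adj r0 c3) (a04 : Adj r0 c4)
    (a10 : Adj r1 c0) (n11 : ¬ Adj r1 c1) (a13 : Adj r1 c3) (a14 : Adj r1 c4)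
    (a21 : Adj r2 c1) (a23 : Adj r2 c3) (a24 : Adj r2 c4)
    (a30 : Adj r3 c0) (a31 : Adj r3 c1) (a33 : Adj r3 c3) (n34 : ¬ Adj r3 c4)
    (a40 : Adj r4 c0) (a41 : Adj r4 c1) (n43 : ¬ Adj r4 c3) (a44 : Adj r4 c4) : kd r4 = 0 := by
  by_contra hr4
  have main : ∀ y3 k3, c3 = .N y3 k3 → (k3 : ℕ) ≠ m →
      (∀ (y : Pos m b) (k : Fin (m + 1)), Adj r4 (.N y k) → (k : ℕ) = m) → False := by
    rintro y3 k3 rfl hk3 hlev
    have key : ∀ r : Idx m b, kd r ≤ 2 → Adj r (.N y3 k3) → ∃ x j, r = .N x j := by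
      intro r hr h1
      rcases kd_body hr with h | ⟨t, rfl⟩ | ⟨t, rfl⟩
      · exact h
      · exact absurd h1 hk3
      · exact absurd h1 hk3
    obtain ⟨x0, j0, rfl⟩ := key r0 (by omega) a03
    obtain ⟨x1, j1, rfl⟩ := key r1 (by omega) a13
    obtain ⟨x2, j2, rfl⟩ := key r2 (by omega) a23
    obtain ⟨x3, j3, rfl⟩ := key r3 (by omega) a33
    obtain ⟨y1, k1, rfl⟩ := kd_N (show kd c1 = 0 by simpa using kc1)
    obtain ⟨y0, k0, rfl⟩ := kd_N (show kd c0 = 0 by simpa using kc0)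
    have hk1 := hlev _ _ a41
    have hk0 := hlev _ _ a40
    rcases kd_body kc4 with ⟨y4, k4, rfl⟩ | ⟨u4, rfl⟩ | ⟨u4, rfl⟩
    · have hk4 := hlev _ _ a44
      simp only [Adj] at a14 n11 a31 n34 a10 a30
      obtain ⟨f, h1, h2, h3, h4, h5⟩ := two_nodes a14 n11 a31 n34
      have e1 := a14 f h3 h2
      have e2 := a31 f h4 h1
      have e3 := a10 f h3 (by omega)
      have e4 := a30 f h4 (by omega)
      omega
    · exact conv_contra cr a04 a14 a24 a01 n11 a21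
    · exact conv_contra cr a04 a14 a24 a01 n11 a21
  rcases kd_body kr4 with ⟨x4, j4, rfl⟩ | ⟨t4, rfl⟩ | ⟨t4, rfl⟩
  · exact hr4 rfl
  · rcases kd_body (show kd c3 ≤ 2 by omega) with ⟨y3, k3, rfl⟩ | ⟨u3, rfl⟩ | ⟨u3, rfl⟩
    · exact main y3 k3 rfl n43 (fun y k h => h)
    · rcases kd_body kc4 with ⟨y4, k4, rfl⟩ | ⟨u4, rfl⟩ | ⟨u4, rfl⟩
      · simp at kc3
      · exact a44
      · rcases kd_body (show kd r3 ≤ 2 by omega) with ⟨x3, j3, rfl⟩ | ⟨u3, rfl⟩ | ⟨u3, rfl⟩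
        · exact n34 a33
        · exact n34 trivial
        · exact n34 trivial
    · exact n43 trivial
  · rcases kd_body (show kd c3 ≤ 2 by omega) with ⟨y3, k3, rfl⟩ | ⟨u3, rfl⟩ | ⟨u3, rfl⟩
    · exact main y3 k3 rfl n43 (fun y k h => h)
    · exact n43 trivial
    · exact n43 trivial

theorem dec_lem {r3 r4 c3 c4 : Idx m b} {l3 l4 a3 a4 : Fin (m + 1)} {s3 s4 q3 q4 : Fin (b + 2)}
    {t3 t4 u3 u4 : Pos m b}
    (h3 : r3 = .G l3 s3 t3) (h4 : r4 = .G l4 s4 t4) (i3 : c3 = .G a3 q3 u3)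
    (i4 : c4 = .G a4 q4 u4)
    (or : (l3 : ℕ) < l4 ∨ ((l3 : ℕ) = l4 ∧ (s3 : ℕ) ≤ s4))
    (oc : (a3 : ℕ) < a4 ∨ ((a3 : ℕ) = a4 ∧ (q4 : ℕ) ≤ q3))
    (a33 : Adj r3 c3) (n34 : ¬ Adj r3 c4) (n43 : ¬ Adj r4 c3) (a44 : Adj r4 c4) : False := by
  subst h3 h4 i3 i4
  simp only [Adj] at a33 n34 n43 a44
  push Not at n34 n43
  omega

theorem adj_V_iff {r c : Idx m b} (hr : kd r = 4) : Adj r c ↔ kd c ≠ 3 := by
  obtain ⟨t, rfl⟩ := kd_V hr
  cases c <;> simp [Adj]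

theorem not_adj_V {r c : Idx m b} (hr : kd r = 4) (h : ¬ Adj r c) : kd c = 3 := by
  by_contra hc
  exact h ((adj_V_iff hr).2 hc)

theorem no_copy {r0 r1 r2 r3 r4 c0 c1 c2 c3 c4 : Idx m b}
    (kr0 : kd r0 ≤ kd r1) (kr1 : kd r1 ≤ kd r2) (kr2 : kd r2 ≤ kd r3) (kr3 : kd r3 ≤ kd r4)
    (kc0 : kd c0 ≤ kd c1) (kc1 : kd c1 ≤ kd c2) (kc2 : kd c2 ≤ kd c3) (kc3 : kd c3 ≤ kd c4)
    (cr : Conv r0 r1 r2) (cc : Conv c0 c1 c2)
    (or : ∀ l3 s3 t3 l4 s4 t4, r3 = .G l3 s3 t3 → r4 = .G l4 s4 t4 →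
      (l3 : ℕ) < l4 ∨ ((l3 : ℕ) = l4 ∧ (s3 : ℕ) ≤ s4))
    (oc : ∀ l3 s3 t3 l4 s4 t4, c3 = .G l3 s3 t3 → c4 = .G l4 s4 t4 →
      (l3 : ℕ) < l4 ∨ ((l3 : ℕ) = l4 ∧ (s4 : ℕ) ≤ s3))
    (a00 : Adj r0 c0) (a01 : Adj r0 c1) (a02 : Adj r0 c2) (a03 : Adj r0 c3) (a04 : Adj r0 c4)
    (a10 : Adj r1 c0) (n11 : ¬ Adj r1 c1) (a12 : Adj r1 c2) (a13 : Adj r1 c3) (a14 : Adj r1 c4)
    (a20 : Adj r2 c0) (a21 : Adj r2 c1) (a22 : Adj r2 c2) (a23 : Adj r2 c3) (a24 : Adj r2 c4)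
    (a30 : Adj r3 c0) (a31 : Adj r3 c1) (a32 : Adj r3 c2) (a33 : Adj r3 c3) (n34 : ¬ Adj r3 c4)
    (a40 : Adj r4 c0) (a41 : Adj r4 c1) (a42 : Adj r4 c2) (n43 : ¬ Adj r4 c3)
    (a44 : Adj r4 c4) :
    ∃ x y j k, r0 = .N x j ∧ c0 = .N y k ∧ (j : ℕ) = m ∧ (k : ℕ) = m := by
  have hr4 := kd_le r4
  have hc4 := kd_le c4
  have hr3 : kd r3 ≤ 3 := by
    by_contra h
    have h3 : kd r3 = 4 := by omega
    have h1 := not_adj_V h3 n34
    have h2 : kd r4 = 4 := by omega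
    have h4 := not_adj_V h2 n43
    exact (adj_V_iff h3).1 a33 h4
  have hc3 : kd c3 ≤ 3 := by
    by_contra h
    have h3 : kd c3 = 4 := by omega
    have h1 := not_adj_V h3 (fun h => n43 h.symm')
    have h2 : kd c4 = 4 := by omega
    have h4 := not_adj_V h2 (fun h => n34 h.symm')
    exact (adj_V_iff h3).1 a33.symm' h4
  by_cases hV : kd c4 = 4 ∨ kd r4 = 4
  · have hV' : kd c4 = 4 ∧ kd r4 = 4 ∧ kd r3 = 3 ∧ kd c3 = 3 := by
      rcases hV with h | h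
      · have h1 := not_adj_V h (fun h => n34 h.symm')
        have h2 := (adj_V_iff h).1 a44.symm'
        have h3 : kd r4 = 4 := by omega
        exact ⟨h, h3, h1, not_adj_V h3 n43⟩
      · have h1 := not_adj_V h n43
        have h2 := (adj_V_iff h).1 a44
        have h3 : kd c4 = 4 := by omega
        exact ⟨h3, h, not_adj_V h3 (fun h => n34 h.symm'), h1⟩
    obtain ⟨h1, h2, h3, h4⟩ := hV'
    obtain ⟨l, s, t, rfl⟩ := kd_G h3
    obtain ⟨l', s', t', rfl⟩ := kd_G h4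
    have e1 := (adj_V_iff h1).1 a24.symm'
    have e2 := (adj_V_iff h2).1 a42
    have e3 : kd r2 ≤ 2 := by omega
    have e4 : kd c2 ≤ 2 := by omega
    exact (core kr0 kr1 e3 kc0 kc1 e4 cr cc a03 a13 a23 a30 a31 a32 a33 a00 a01 a02 a10 n11 a12
      a20 a21 a22).1
  · exfalso
    push Not at hV
    have hr4' : kd r4 ≤ 3 := by omega
    have hc4' : kd c4 ≤ 3 := by omega
    by_cases h1 : kd c3 = 3
    · by_cases h2 : kd r2 ≤ 2
      · exact lem2 kr0 kr1 h2 kr3 hr4' kc1 (by omega) h1 (by omega) cr a01 a02 a03 a04 n11 a12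
          a13 a14 a21 a22 a23 a24 a31 a32 a33 n34 a41 a42 n43 a44
      · by_cases h3 : kd c2 ≤ 2
        · exact lem2 (r0 := c0) (r1 := c1) (r2 := c2) (r3 := c3) (r4 := c4) (c1 := r1)
            (c2 := r2) (c3 := r3) (c4 := r4) kc0 kc1 h3 kc3 hc4' kr1 (by omega) (by omega)
            (by omega) cc a10.symm' a20.symm' a30.symm' a40.symm' (fun h => n11 h.symm')
            a21.symm' a31.symm' a41.symm' a12.symm' a22.symm' a32.symm' a42.symm' a13.symm'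
            a23.symm' a33.symm' (fun h => n43 h.symm') a14.symm' a24.symm'
            (fun h => n34 h.symm') a44.symm'
        · obtain ⟨l3, s3, t3, e3⟩ := kd_G (show kd r3 = 3 by omega)
          obtain ⟨l4, s4, t4, e4⟩ := kd_G (show kd r4 = 3 by omega)
          obtain ⟨a3, q3, u3, f3⟩ := kd_G h1
          obtain ⟨a4, q4, u4, f4⟩ := kd_G (show kd c4 = 3 by omega)
          exact dec_lem e3 e4 f3 f4 (or _ _ _ _ _ _ e3 e4) (oc _ _ _ _ _ _ f3 f4) a33 n34 n43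
            a44
    · by_cases h2 : kd r3 = 3
      · exact lem2 (r0 := c0) (r1 := c1) (r2 := c2) (r3 := c3) (r4 := c4) (c1 := r1)
            (c2 := r2) (c3 := r3) (c4 := r4) kc0 kc1 (by omega) kc3 hc4' kr1 (by omega)
            (by omega) (by omega) cc a10.symm' a20.symm' a30.symm' a40.symm'
            (fun h => n11 h.symm') a21.symm' a31.symm' a41.symm' a12.symm' a22.symm'
            a32.symm' a42.symm' a13.symm' a23.symm' a33.symm' (fun h => n43 h.symm')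
            a14.symm' a24.symm' (fun h => n34 h.symm') a44.symm'
      · have hr3' : kd r3 ≤ 2 := by omega
        have hc3' : kd c3 ≤ 2 := by omega
        by_cases h3 : kd r4 = 3
        · by_cases h4 : kd c4 = 3
          · obtain ⟨l, s, t, rfl⟩ := kd_G h3
            obtain ⟨l', s', t', rfl⟩ := kd_G h4
            have hcore := (core kr0 kr1 (by omega) kc0 kc1 (by omega) cr cc a04 a14 a24 a40
              a41 a42 a44 a00 a01 a02 a10 n11 a12 a20 a21 a22).2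
            obtain ⟨e1, e2, e3, e4⟩ := hcore
            rcases kd_body (show kd r2 ≤ 2 by omega) with ⟨x, j, rfl⟩ | ⟨t, rfl⟩ | ⟨t, rfl⟩
            · simp at e2
            · simp at e2
            · rcases kd_body hr3' with ⟨x, j, rfl⟩ | ⟨t, rfl⟩ | ⟨t, rfl⟩
              · simp at kr2
              · simp at kr2
              · simp only [Adj] at a24 n34
                exact n34 a24
          · exact lem4 (r0 := c0) (r1 := c1) (r2 := c2) (r4 := c4) (c1 := r1) (c3 := r3)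
              (a := (kd_G h3).choose) (s := (kd_G h3).choose_spec.choose)
              (t := (kd_G h3).choose_spec.choose_spec.choose)
              kc0 kc1 (by omega) (by omega) (by omega) hr3' cc
              ((kd_G h3).choose_spec.choose_spec.choose_spec ▸ a40.symm')
              ((kd_G h3).choose_spec.choose_spec.choose_spec ▸ a41.symm')
              ((kd_G h3).choose_spec.choose_spec.choose_spec ▸ a42.symm')
              ((kd_G h3).choose_spec.choose_spec.choose_spec ▸ a44.symm')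
              a10.symm' a30.symm' (fun h => n11 h.symm') a31.symm' a12.symm' a32.symm'
              a14.symm' (fun h => n34 h.symm')
        · by_cases h4 : kd c4 = 3
          · obtain ⟨l', s', t', rfl⟩ := kd_G h4
            exact lem4 kr0 kr1 (by omega) (by omega) (by omega) hc3' cr a04 a14 a24 a44 a01
              a03 n11 a13 a21 a23 a41 n43
          · have e1 := lem5_aux kr0 kr1 kr2 kr3 (by omega) kc0 (by omega) kc3 (by omega) cr a01
              a03 a04 a10 n11 a13 a14 a21 a23 a24 a30 a31 a33 n34 a40 a41 n43 a44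
            have e2 := lem5_aux (r0 := c0) (r1 := c1) (r2 := c2) (r3 := c3) (r4 := c4)
              (c0 := r0) (c1 := r1) (c3 := r3) (c4 := r4)
              kc0 kc1 kc2 kc3 (by omega) kr0 (by omega) kr3 (by omega) cc
              a10.symm' a30.symm' a40.symm' a01.symm' (fun h => n11 h.symm') a31.symm'
              a41.symm' a12.symm' a32.symm' a42.symm' a03.symm' a13.symm' a33.symm'
              (fun h => n43 h.symm') a04.symm' a14.symm' (fun h => n34 h.symm') a44.symm'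
            obtain ⟨x1, j1, rfl⟩ := kd_N (show kd r1 = 0 by omega)
            obtain ⟨x3, j3, rfl⟩ := kd_N (show kd r3 = 0 by omega)
            obtain ⟨x4, j4, rfl⟩ := kd_N e1
            obtain ⟨y1, k1, rfl⟩ := kd_N (show kd c1 = 0 by omega)
            obtain ⟨y3, k3, rfl⟩ := kd_N (show kd c3 = 0 by omega)
            obtain ⟨y4, k4, rfl⟩ := kd_N e2
            simp only [Adj] at n11 n34 n43 a13 a14 a31 a33 a41 a44
            exact l5_nodes n11 n34 n43 a13 a14 a31 a33 a41 a44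

end Vale.Agent.P037h10
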