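import Vale.Agent.P037h10.Defs
import Vale.Agent.P037h10.Count
import Vale.Agent.P037h10.NoCopy

open Finset

namespace Vale.Agent.P037h10

variable {m b q n : ℕ}

structure Layout (m b q n : ℕ) where
  ρ : Fin n ≃ Idx m b × Fin q
  γ : Fin n ≃ Idx m b × Fin q
  hρ : Monotone (fun i => key false (ρ i).1)
  hγ : Monotone (fun i => key true (γ i).1)

open Classical in
noncomputable def Layout.mat (L : Layout m b q n) : Matrix (Fin n) (Fin n) Bool :=
  fun i j => decide (Adj (L.ρ i).1 (L.γ j).1)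

theorem Layout.mat_iff (L : Layout m b q n) (i j : Fin n) :
    L.mat i j = true ↔ Adj (L.ρ i).1 (L.γ j).1 := by
  simp [Layout.mat]

theorem Layout.row_lt (L : Layout m b q n) {r r' : Idx m b} (u : Fin q)
    (h : key false r < key false r') : L.ρ.symm (r, u) < L.ρ.symm (r', u) := by
  by_contra hcon
  have := L.hρ (not_lt.1 hcon)
  simp only [Equiv.apply_symm_apply] at this
  exact absurd h (not_lt.2 this)

theorem Layout.col_lt (L : Layout m b q n) {r r' : Idx m b} (u : Fin q)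
    (h : key true r < key true r') : L.γ.symm (r, u) < L.γ.symm (r', u) := by
  by_contra hcon
  have := L.hγ (not_lt.1 hcon)
  simp only [Equiv.apply_symm_apply] at this
  exact absurd h (not_lt.2 this)

theorem no_copies_iff {k n : ℕ} (H : Matrix (Fin k) (Fin k) Bool)
    (A : Matrix (Fin n) (Fin n) Bool) :
    numCopies H A = 0 ↔ ∀ r c, ¬ IsOrderedCopy H A r c := by
  unfold numCopies
  rw [Finite.card_eq_zero_iff]
  constructor
  · intro h r c hrc
    exact h.false ⟨(r, c), hrc⟩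
  · intro h
    exact ⟨fun p => h _ _ p.2⟩

theorem strictMono5 {x0 x1 x2 x3 x4 : Fin n} (h0 : x0 < x1) (h1 : x1 < x2) (h2 : x2 < x3)
    (h3 : x3 < x4) : StrictMono ![x0, x1, x2, x3, x4] := by
  rw [Fin.strictMono_iff_lt_succ]
  intro i
  fin_cases i
  · exact h0
  · exact h1
  · exact h2
  · exact h3

theorem Layout.hfree5 (L : Layout m b q n) {B : Matrix (Fin n) (Fin n) Bool}
    (hB : numCopies pattern B = 0) (u w : Fin q) :
    HFree5 (fun r c => B (L.ρ.symm (r, u)) (L.γ.symm (c, w)) = true) := by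
  rw [no_copies_iff] at hB
  intro r0 r1 r2 r3 r4 c0 c1 c2 c3 c4 h1 h2 h3 h4 h5 h6 h7 h8 a00 a01 a02 a03 a04 a10 a11 a12 a13
    a14 a20 a21 a22 a23 a24 a30 a31 a32 a33 a34 a40 a41 a42 a43 a44
  refine hB ![L.ρ.symm (r0, u), L.ρ.symm (r1, u), L.ρ.symm (r2, u), L.ρ.symm (r3, u),
    L.ρ.symm (r4, u)] ![L.γ.symm (c0, w), L.γ.symm (c1, w), L.γ.symm (c2, w), L.γ.symm (c3, w),
    L.γ.symm (c4, w)] ⟨strictMono5 (L.row_lt u h1) (L.row_lt u h2) (L.row_lt u h3)
      (L.row_lt u h4), strictMono5 (L.col_lt w h5) (L.col_lt w h6) (L.col_lt w h7)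
      (L.col_lt w h8), ?_⟩
  simp only [Bool.not_eq_true] at a11 a34 a43
  intro i j
  fin_cases i <;> fin_cases j
  · exact a00
  · exact a01
  · exact a02
  · exact a03
  · exact a04
  · exact a10
  · exact a11
  · exact a12
  · exact a13
  · exact a14
  · exact a20
  · exact a21
  · exact a22
  · exact a23
  · exact a24
  · exact a30
  · exact a31
  · exact a32
  · exact a33
  · exact a34
  · exact a40
  · exact a41
  · exact a42
  · exact a43
  · exact a44

theorem Layout.copy_leaf (L : Layout m b q n) {r c : Fin 5 → Fin n}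
    (h : IsOrderedCopy pattern L.mat r c) :
    ∃ x : Pos m b, (L.ρ (r 0)).1 = .N x (Fin.last m) ∧ (L.γ (c 0)).1 = .N x (Fin.last m) := by
  obtain ⟨hr, hc, he⟩ := h
  have hk : ∀ i j : Fin 5, i ≤ j → key false (L.ρ (r i)).1 ≤ key false (L.ρ (r j)).1 :=
    fun i j hij => L.hρ (hr.monotone hij)
  have hl : ∀ i j : Fin 5, i ≤ j → key true (L.γ (c i)).1 ≤ key true (L.γ (c j)).1 :=
    fun i j hij => L.hγ (hc.monotone hij)
  have hA : ∀ i j : Fin 5, pattern i j = true → Adj (L.ρ (r i)).1 (L.γ (c j)).1 := by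
    intro i j hij
    rw [← L.mat_iff, he, hij]
  have hN : ∀ i j : Fin 5, pattern i j = false → ¬ Adj (L.ρ (r i)).1 (L.γ (c j)).1 := by
    intro i j hij
    rw [← L.mat_iff, he, hij]
    simp
  obtain ⟨x, y, j, k, h1, h2, h3, h4⟩ := no_copy
    (kd_of_key (hk 0 1 (by decide))) (kd_of_key (hk 1 2 (by decide)))
    (kd_of_key (hk 2 3 (by decide))) (kd_of_key (hk 3 4 (by decide)))
    (kd_of_key (hl 0 1 (by decide))) (kd_of_key (hl 1 2 (by decide)))
    (kd_of_key (hl 2 3 (by decide))) (kd_of_key (hl 3 4 (by decide)))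
    (conv_of_key (hk 0 1 (by decide)) (hk 1 2 (by decide)))
    (conv_of_key (hl 0 1 (by decide)) (hl 1 2 (by decide)))
    (fun l3 s3 t3 l4 s4 t4 e3 e4 => by
      have := hk 3 4 (by decide)
      rw [e3, e4] at this
      exact G_of_key_false this)
    (fun l3 s3 t3 l4 s4 t4 e3 e4 => by
      have := hl 3 4 (by decide)
      rw [e3, e4] at this
      exact G_of_key_true this)
    (hA 0 0 rfl) (hA 0 1 rfl) (hA 0 2 rfl) (hA 0 3 rfl) (hA 0 4 rfl)
    (hA 1 0 rfl) (hN 1 1 rfl) (hA 1 2 rfl) (hA 1 3 rfl) (hA 1 4 rfl)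
    (hA 2 0 rfl) (hA 2 1 rfl) (hA 2 2 rfl) (hA 2 3 rfl) (hA 2 4 rfl)
    (hA 3 0 rfl) (hA 3 1 rfl) (hA 3 2 rfl) (hA 3 3 rfl) (hN 3 4 rfl)
    (hA 4 0 rfl) (hA 4 1 rfl) (hA 4 2 rfl) (hN 4 3 rfl) (hA 4 4 rfl)
  have hj : j = Fin.last m := Fin.ext h3
  have hk' : k = Fin.last m := Fin.ext h4
  subst hj hk'
  have h5 := hA 0 0 rfl
  rw [h1, h2] at h5
  have hxy : x = y := by
    funext i
    have := h5 i i.2 i.2
    simp only [dg, i.2, dif_pos] at this
    exact Fin.ext this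
  exact ⟨x, h1, by rw [h2, hxy]⟩

end Vale.Agent.P037h10
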