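import Mathlib.Data.Matrix.Basic
import Mathlib.LinearAlgebra.Matrix.Notation
import Mathlib.Analysis.SpecialFunctions.Pow.Real

namespace Vale.Agent.P037h10

def IsOrderedCopy {k n : ℕ} (H : Matrix (Fin k) (Fin k) Bool) (A : Matrix (Fin n) (Fin n) Bool)
    (r c : Fin k → Fin n) : Prop :=
  StrictMono r ∧ StrictMono c ∧ ∀ i j, A (r i) (c j) = H i j

noncomputable def numCopies {k n : ℕ} (H : Matrix (Fin k) (Fin k) Bool)
    (A : Matrix (Fin n) (Fin n) Bool) : ℕ :=
  Nat.card {p : (Fin k → Fin n) × (Fin k → Fin n) // IsOrderedCopy H A p.1 p.2}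

noncomputable def numChanges {n : ℕ} (A B : Matrix (Fin n) (Fin n) Bool) : ℕ :=
  Nat.card {p : Fin n × Fin n // A p.1 p.2 ≠ B p.1 p.2}

noncomputable def distToFree {k n : ℕ} (H : Matrix (Fin k) (Fin k) Bool)
    (A : Matrix (Fin n) (Fin n) Bool) : ℝ :=
  ((sInf {d : ℕ | ∃ B : Matrix (Fin n) (Fin n) Bool, numCopies H B = 0 ∧ numChanges A B = d} :
    ℕ) : ℝ) / (n : ℝ) ^ 2

def PolynomialRemoval {k : ℕ} (H : Matrix (Fin k) (Fin k) Bool) : Prop :=
  ∃ c C : ℝ, 0 < c ∧ 0 < C ∧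
    ∀ (n : ℕ) (ε : ℝ) (A : Matrix (Fin n) (Fin n) Bool),
      1 ≤ n → 0 < ε → ε < 1 → ε ≤ distToFree H A →
        c * ε ^ C * (n : ℝ) ^ (2 * k) ≤ (numCopies H A : ℝ)

def pattern : Matrix (Fin 5) (Fin 5) Bool :=
  !![true, true, true, true, true;
     true, false, true, true, true;
     true, true, true, true, true;
     true, true, true, true, false;
     true, true, true, false, true]

end Vale.Agent.P037h10
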