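import Vale.Agent.P037h10.Main
import Mathlib.Analysis.SpecificLimits.Normed

open Filter

namespace Vale.Agent.P037h10

theorem half_pow (m : ℕ) (hm : 1 ≤ m) : (4 * m + 2) ^ m ≤ 2 * (4 * m) ^ m := by
  have h1 : (0 : ℝ) < 4 * m + 2 := by positivity
  have h2 : (1 : ℝ) + m * (-(2 / (4 * m + 2))) ≤ (1 + -(2 / (4 * m + 2))) ^ m := by
    apply one_add_mul_le_pow
    have : (2 : ℝ) / (4 * m + 2) ≤ 1 := by
      rw [div_le_one h1]
      have : (0 : ℝ) ≤ m := Nat.cast_nonneg m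
      linarith
    linarith
  have h3 : (1 : ℝ) + -(2 / (4 * m + 2)) = (4 * m) / (4 * m + 2) := by
    field_simp
    ring
  have h4 : (1 : ℝ) / 2 ≤ 1 + m * (-(2 / (4 * m + 2))) := by
    have : (m : ℝ) * (2 / (4 * m + 2)) ≤ 1 / 2 := by
      rw [mul_div_assoc', div_le_div_iff₀ h1 (by norm_num)]
      have : (0 : ℝ) ≤ m := Nat.cast_nonneg m
      linarith
    linarith
  rw [h3, div_pow] at h2
  have h5 : (1 : ℝ) / 2 ≤ (4 * (m : ℝ)) ^ m / (4 * m + 2) ^ m := h4.trans h2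
  rw [div_le_div_iff₀ (by norm_num) (by positivity)] at h5
  have h6 : ((4 * (m : ℝ) + 2) ^ m) ≤ 2 * (4 * m) ^ m := by linarith
  exact_mod_cast h6

theorem changes_bound {m q n : ℕ} (hm : 1 ≤ m) (L : Layout m (4 * m) q n)
    {B : Matrix (Fin n) (Fin n) Bool} (hB : numCopies pattern B = 0) :
    n ^ 2 ≤ 100000 * (m + 1) ^ 10 * numChanges L.mat B := by
  have h1 := L.changes_ge hB
  have hn := L.card
  have h2 := half_pow m hm
  set D := numChanges L.mat B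
  set T := (4 * m + 2) ^ m with hT
  set Z := (4 * m) ^ m with hZ
  have hTpos : 0 < T := by positivity
  set R := (m + 1) * (4 * m + 3) + 3 with hR
  set R' := 2 * m + ((m + 1) * (4 * m + 2) + 5) with hR'
  have h3 : Z * T * q ^ 2 ≤ R' ^ 2 * (4 * m + 2) ^ 2 * D := by
    have : T * (Z * T * q ^ 2) ≤ T * (R' ^ 2 * (4 * m + 2) ^ 2 * D) := by
      calc T * (Z * T * q ^ 2) = Z * T * T * q ^ 2 := by ring
        _ ≤ R' ^ 2 * ((4 * m + 2) ^ 2 * T * D) := h1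
        _ = T * (R' ^ 2 * (4 * m + 2) ^ 2 * D) := by ring
    exact Nat.le_of_mul_le_mul_left this hTpos
  have h4 : T ^ 2 * q ^ 2 ≤ 2 * (R' ^ 2 * (4 * m + 2) ^ 2 * D) := by
    calc T ^ 2 * q ^ 2 = T * (T * q ^ 2) := by ring
      _ ≤ (2 * Z) * (T * q ^ 2) := Nat.mul_le_mul_right _ h2
      _ = 2 * (Z * T * q ^ 2) := by ring
      _ ≤ _ := Nat.mul_le_mul_left _ h3
  have e1 : R ≤ 6 * (m + 1) ^ 2 := by rw [hR]; nlinarith
  have e2 : R' ≤ 7 * (m + 1) ^ 2 := by rw [hR']; nlinarith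
  have e3 : 4 * m + 2 ≤ 4 * (m + 1) := by omega
  calc n ^ 2 = R ^ 2 * (T ^ 2 * q ^ 2) := by rw [hn]; ring
    _ ≤ R ^ 2 * (2 * (R' ^ 2 * (4 * m + 2) ^ 2 * D)) := Nat.mul_le_mul_left _ h4
    _ ≤ (6 * (m + 1) ^ 2) ^ 2 * (2 * ((7 * (m + 1) ^ 2) ^ 2 * (4 * (m + 1)) ^ 2 * D)) := by
        gcongr
    _ = 56448 * (m + 1) ^ 10 * D := by ring
    _ ≤ 100000 * (m + 1) ^ 10 * D := by gcongr; norm_num

theorem copies_bound {m q n : ℕ} (L : Layout m (4 * m) q n) :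
    numCopies pattern L.mat * (4 * m + 2) ^ m ≤ n ^ 10 := by
  have h1 := L.copies_le
  have hn := L.card
  set T := (4 * m + 2) ^ m with hT
  have h2 : T * q ≤ n := by
    rw [hn]
    calc T * q ≤ T * q * ((m + 1) * (4 * m + 3) + 3) :=
          Nat.le_mul_of_pos_right _ (by positivity)
      _ = T * ((m + 1) * (4 * m + 3) + 3) * q := by ring
  calc numCopies pattern L.mat * T ≤ T * q ^ 2 * n ^ 8 * T := Nat.mul_le_mul_right _ h1
    _ = (T * q) ^ 2 * n ^ 8 := by ring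
    _ ≤ n ^ 2 * n ^ 8 := by gcongr
    _ = n ^ 10 := by ring

theorem exists_free (n : ℕ) :
    numCopies pattern (Matrix.of fun _ _ : Fin n => false) = 0 := by
  rw [no_copies_iff]
  rintro r c ⟨-, -, h⟩
  have := h 0 0
  simp [pattern] at this

theorem dist_bound {m q n : ℕ} (hm : 1 ≤ m) (hn : 1 ≤ n) (L : Layout m (4 * m) q n) :
    1 / (100000 * ((m : ℝ) + 1) ^ 10) ≤ distToFree pattern L.mat := by
  unfold distToFree
  have hne : {d : ℕ | ∃ B : Matrix (Fin n) (Fin n) Bool,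
      numCopies pattern B = 0 ∧ numChanges L.mat B = d}.Nonempty :=
    ⟨_, _, exists_free n, rfl⟩
  obtain ⟨B, hB, hd⟩ := Nat.sInf_mem hne
  rw [← hd]
  have h := changes_bound hm L hB
  have h' : (n : ℝ) ^ 2 ≤ 100000 * ((m : ℝ) + 1) ^ 10 * numChanges L.mat B := by
    exact_mod_cast h
  have hn' : (0 : ℝ) < (n : ℝ) ^ 2 := by positivity
  rw [div_le_div_iff₀ (by positivity) hn']
  linarith

theorem quantitative (m N : ℕ) (hm : 1 ≤ m) :
    ∃ n, N ≤ n ∧ 1 ≤ n ∧ ∃ A : Matrix (Fin n) (Fin n) Bool,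
      1 / (100000 * ((m : ℝ) + 1) ^ 10) ≤ distToFree pattern A ∧
      (numCopies pattern A : ℝ) ≤ (n : ℝ) ^ 10 / (4 * (m : ℝ) + 2) ^ m := by
  obtain ⟨L⟩ := exists_layout m (4 * m) (N + 1)
  set n := (4 * m + 2) ^ m * ((m + 1) * (4 * m + 3) + 3) * (N + 1) with hn
  have h1 : N + 1 ≤ n := by
    rw [hn]
    exact Nat.le_mul_of_pos_left _ (by positivity)
  refine ⟨n, by omega, by omega, L.mat, dist_bound hm (by omega) L, ?_⟩
  rw [le_div_iff₀ (by positivity)]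
  exact_mod_cast copies_bound L

theorem not_polynomialRemoval : ¬ PolynomialRemoval pattern := by
  rintro ⟨c, C, hc, hC, h⟩
  obtain ⟨K, hK⟩ := exists_nat_ge C
  have hlim : Tendsto (fun m : ℕ => ((m : ℝ)) ^ (10 * K) / (2 : ℝ) ^ m) atTop (nhds 0) :=
    tendsto_pow_const_div_const_pow_of_one_lt (10 * K) (by norm_num)
  have hlim2 : Tendsto (fun m : ℕ => 2 * (100000 : ℝ) ^ K *
      (((m + 1 : ℕ) : ℝ) ^ (10 * K) / (2 : ℝ) ^ (m + 1))) atTop (nhds 0) := by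
    have := (hlim.comp (tendsto_add_atTop_nat 1)).const_mul (2 * (100000 : ℝ) ^ K)
    simpa using this
  obtain ⟨m, hm1, hm2⟩ := ((hlim2.eventually (gt_mem_nhds hc)).and
    (eventually_ge_atTop 1)).exists
  obtain ⟨n, -, hn, A, hA, hA2⟩ := quantitative m 0 hm2
  set X : ℝ := 100000 * ((m : ℝ) + 1) ^ 10 with hX
  have hXpos : 0 < X := by positivity
  have hX1 : 1 < X := by
    have : (1 : ℝ) ≤ ((m : ℝ) + 1) ^ 10 := one_le_pow₀ (by
      have : (0 : ℝ) ≤ m := Nat.cast_nonneg m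
      linarith)
    rw [hX]; linarith
  have h1 := h n (1 / X) A hn (by positivity) (by rw [div_lt_one hXpos]; exact hX1) hA
  have h2 : c * (1 / X) ^ C * (n : ℝ) ^ 10 ≤ (n : ℝ) ^ 10 / (4 * (m : ℝ) + 2) ^ m := by
    have e : (n : ℝ) ^ (2 * 5) = (n : ℝ) ^ 10 := by norm_num
    rw [e] at h1
    exact h1.trans hA2
  have hnpos : (0 : ℝ) < (n : ℝ) ^ 10 := by positivity
  have h3 : c * (1 / X) ^ C ≤ 1 / (4 * (m : ℝ) + 2) ^ m := by
    have : c * (1 / X) ^ C * (n : ℝ) ^ 10 ≤ 1 / (4 * (m : ℝ) + 2) ^ m * (n : ℝ) ^ 10 := by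
      rw [one_div_mul_eq_div]; exact h2
    exact le_of_mul_le_mul_right this hnpos
  have h4 : (1 / X) ^ (K : ℕ) ≤ (1 / X) ^ C := by
    rw [← Real.rpow_natCast]
    apply Real.rpow_le_rpow_of_exponent_ge (by positivity) _ hK
    rw [div_le_one hXpos]; exact hX1.le
  have h5 : 1 / (4 * (m : ℝ) + 2) ^ m ≤ 1 / (2 : ℝ) ^ m := by
    apply one_div_le_one_div_of_le (by positivity)
    gcongr
    have : (0 : ℝ) ≤ m := Nat.cast_nonneg m
    linarith
  have h6 : c * (1 / X) ^ K ≤ 1 / (2 : ℝ) ^ m :=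
    (mul_le_mul_of_nonneg_left h4 hc.le).trans (h3.trans h5)
  have h7 : c ≤ X ^ K / 2 ^ m := by
    rw [one_div_pow, mul_one_div, div_le_div_iff₀ (by positivity) (by positivity)] at h6
    rw [le_div_iff₀ (by positivity)]
    linarith
  have h8 : X ^ K / 2 ^ m = 2 * (100000 : ℝ) ^ K *
      (((m + 1 : ℕ) : ℝ) ^ (10 * K) / (2 : ℝ) ^ (m + 1)) := by
    rw [hX, mul_pow, ← pow_mul, pow_succ]
    push_cast
    field_simp
  rw [h8] at h7
  exact absurd hm1 (not_lt.2 h7)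

end Vale.Agent.P037h10
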