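import Vale.Agent.P037h10.Order

namespace Vale.Agent.P037h10

variable {m b : ℕ}

def P (a : Pos m b) (j : ℕ) (sd : Bool) : Pos m b :=
  if h : j < m then Function.update a ⟨j, h⟩ (if sd then Fin.last (b + 1) else 0) else a

theorem P_of_ne (a : Pos m b) {j : ℕ} (sd : Bool) {i : Fin m} (h : (i : ℕ) ≠ j) :
    P a j sd i = a i := by
  by_cases h1 : j < m
  · simp only [P, h1, dif_pos]
    apply Function.update_of_ne
    intro e
    apply h
    rw [e]
  · simp only [P, h1, dif_neg, not_false_iff]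

theorem P_self_false (a : Pos m b) {j : ℕ} (h : j < m) : P a j false ⟨j, h⟩ = 0 := by
  simp [P, h]

theorem P_self_true (a : Pos m b) {j : ℕ} (h : j < m) :
    P a j true ⟨j, h⟩ = Fin.last (b + 1) := by
  simp [P, h]

theorem dg_P (a : Pos m b) {j : ℕ} (sd : Bool) {i : ℕ} (h : i ≠ j) :
    dg (P a j sd) i = dg a i := by
  unfold dg
  split_ifs with h1
  · rw [P_of_ne]
    exact h
  · rfl

def el (z t : Pos m b) (j : Fin (m + 1)) (sd : Bool) : Idx m b :=
  .N (P (if (j : ℕ) = 0 then t else z) j sd) j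

inductive TRole (m b : ℕ) : Type
  | root (sd : Bool) : TRole m b
  | S : TRole m b
  | S2 : TRole m b
  | G (l : Fin (m + 1)) (s : Fin (b + 2)) : TRole m b
  | V : TRole m b

def elT (t : Pos m b) : TRole m b → Idx m b
  | .root sd => .N (P t 0 sd) 0
  | .S => .S t
  | .S2 => .S2 t
  | .G l s => .G l s t
  | .V => .V t

def chainEl (z : Pos m b) (j : Fin m) (sd : Bool) : Idx m b := .N (P z (j + 1) sd) j.succ

theorem el_zero (z t : Pos m b) (sd : Bool) : el z t 0 sd = elT t (.root sd) := by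
  simp [el, elT]

theorem el_succ (z t : Pos m b) (j : Fin m) (sd : Bool) :
    el z t j.succ sd = chainEl z j sd := by
  simp [el, chainEl]

def HFree5 (B : Idx m b → Idx m b → Prop) : Prop :=
  ∀ r0 r1 r2 r3 r4 c0 c1 c2 c3 c4 : Idx m b,
    key false r0 < key false r1 → key false r1 < key false r2 → key false r2 < key false r3 →
    key false r3 < key false r4 →
    key true c0 < key true c1 → key true c1 < key true c2 → key true c2 < key true c3 →
    key true c3 < key true c4 →
    B r0 c0 → B r0 c1 → B r0 c2 → B r0 c3 → B r0 c4 →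
    B r1 c0 → ¬ B r1 c1 → B r1 c2 → B r1 c3 → B r1 c4 →
    B r2 c0 → B r2 c1 → B r2 c2 → B r2 c3 → B r2 c4 →
    B r3 c0 → B r3 c1 → B r3 c2 → B r3 c3 → ¬ B r3 c4 →
    B r4 c0 → B r4 c1 → B r4 c2 → ¬ B r4 c3 → B r4 c4 → False

theorem el_lt_false {z t : Pos m b} (hz : ∀ i, 0 < z i ∧ z i < Fin.last (b + 1)) (rev : Bool)
    (j : Fin m) (sd : Bool) :
    key rev (el z t j.castSucc false) < key rev (el z t j.succ sd) := by
  apply key_N_lt
  refine ⟨j, ?_, ?_⟩
  · intro i hi
    have h0 : ((j.castSucc : Fin (m + 1)) : ℕ) ≠ 0 := by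
      have : (i : ℕ) < j := hi
      simp only [Fin.val_castSucc]; omega
    change P _ _ _ i = P _ _ _ i
    rw [P_of_ne, P_of_ne, if_neg h0, if_neg (by simp)]
    · have : (i : ℕ) < j := hi
      simp only [Fin.val_succ]; omega
    · have : (i : ℕ) < j := hi
      simp only [Fin.val_castSucc]; omega
  · change P _ _ _ j < P _ _ _ j
    have h1 : P (if ((j.succ : Fin (m + 1)) : ℕ) = 0 then t else z)
        ((j.succ : Fin (m + 1)) : ℕ) sd j = z j := by
      rw [P_of_ne _ _ (by simp), if_neg (by simp)]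
    have h2 : P (if ((j.castSucc : Fin (m + 1)) : ℕ) = 0 then t else z)
      ((j.castSucc : Fin (m + 1)) : ℕ) false j = 0 := P_self_false _ j.2
    rw [h1, h2]
    exact (hz j).1

theorem el_lt_true {z t : Pos m b} (hz : ∀ i, 0 < z i ∧ z i < Fin.last (b + 1)) (rev : Bool)
    (j : Fin m) (sd : Bool) :
    key rev (el z t j.succ sd) < key rev (el z t j.castSucc true) := by
  apply key_N_lt
  refine ⟨j, ?_, ?_⟩
  · intro i hi
    have h0 : ((j.castSucc : Fin (m + 1)) : ℕ) ≠ 0 := by
      have : (i : ℕ) < j := hi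
      simp only [Fin.val_castSucc]; omega
    change P _ _ _ i = P _ _ _ i
    rw [P_of_ne, P_of_ne, if_neg h0, if_neg (by simp)]
    · have : (i : ℕ) < j := hi
      simp only [Fin.val_castSucc]; omega
    · have : (i : ℕ) < j := hi
      simp only [Fin.val_succ]; omega
  · change P _ _ _ j < P _ _ _ j
    have h1 : P (if ((j.succ : Fin (m + 1)) : ℕ) = 0 then t else z)
        ((j.succ : Fin (m + 1)) : ℕ) sd j = z j := by
      rw [P_of_ne _ _ (by simp), if_neg (by simp)]
    have h2 : P (if ((j.castSucc : Fin (m + 1)) : ℕ) = 0 then t else z)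
      ((j.castSucc : Fin (m + 1)) : ℕ) true j = Fin.last (b + 1) := P_self_true _ j.2
    rw [h1, h2]
    exact (hz j).2

theorem adj_el_G_same (z t : Pos m b) (j : Fin (m + 1)) (sd : Bool) (s : Fin (b + 2))
    (t' : Pos m b) : Adj (el z t j sd) (.G j s t') := Or.inl rfl

theorem adj_el_G_succ (z t : Pos m b) (j : Fin m) (sd : Bool) (t' : Pos m b) :
    Adj (el z t j.succ sd) (.G j.castSucc (z j) t') := by
  refine Or.inr ⟨by simp, ?_⟩
  rw [if_neg (by simp), dg_P _ _ (by simp)]
  simp [dg]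

theorem forced {B : Idx m b → Idx m b → Prop} (hfree : HFree5 B)
    {z t' t : Pos m b} (hz : ∀ i, 0 < z i ∧ z i < Fin.last (b + 1))
    (hCT : ∀ j sd κ, B (chainEl z j sd) (elT t κ) ↔ Adj (chainEl z j sd) (elT t κ))
    (hTC : ∀ ρ j sd, B (elT t' ρ) (chainEl z j sd) ↔ Adj (elT t' ρ) (chainEl z j sd))
    (hTT : ∀ ρ κ, B (elT t' ρ) (elT t κ) ↔ Adj (elT t' ρ) (elT t κ)) : False := by
  have hET : ∀ j sd κ, B (el z t' j sd) (elT t κ) ↔ Adj (el z t' j sd) (elT t κ) := by
    intro j sd κ
    refine Fin.cases ?_ (fun i => ?_) j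
    · rw [el_zero]; exact hTT _ _
    · rw [el_succ]; exact hCT _ _ _
  have hTE : ∀ ρ j sd, B (elT t' ρ) (el z t j sd) ↔ Adj (elT t' ρ) (el z t j sd) := by
    intro ρ j sd
    refine Fin.cases ?_ (fun i => ?_) j
    · rw [el_zero]; exact hTT _ _
    · rw [el_succ]; exact hTC _ _ _
  have hmain : ∀ (j k : Fin (m + 1)) (a c : Bool), B (el z t' j a) (el z t k c) := by
    intro j
    induction j using Fin.induction with
    | zero =>
      intro k a c
      rw [el_zero, hTE]
      intro i hi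
      exact absurd hi (by simp)
    | succ j ihj =>
      intro k
      induction k using Fin.induction with
      | zero =>
        intro a c
        rw [el_zero, hET]
        intro i hi hi2
        exact absurd hi2 (by simp)
      | succ k ihk =>
        intro a c
        by_contra hcon
        refine hfree (el z t' j.castSucc false) (el z t' j.succ a) (el z t' j.castSucc true)
          (.G k.castSucc (z k) t') (.V t')
          (el z t k.castSucc false) (el z t k.succ c) (el z t k.castSucc true)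
          (.G j.castSucc (z j) t) (.V t)
          (el_lt_false hz _ _ _) (el_lt_true hz _ _ _) (key_lt_of_kd (by simp [el]))
          (key_lt_of_kd (by simp))
          (el_lt_false hz _ _ _) (el_lt_true hz _ _ _) (key_lt_of_kd (by simp [el]))
          (key_lt_of_kd (by simp))
          (ihj _ _ _) (ihj _ _ _) (ihj _ _ _) ?_ ?_
          (ihk _ _) hcon (ihk _ _) ?_ ?_
          (ihj _ _ _) (ihj _ _ _) (ihj _ _ _) ?_ ?_
          ?_ ?_ ?_ ?_ ?_
          ?_ ?_ ?_ ?_ ?_
        · exact (hET _ _ (.G j.castSucc (z j))).2 (adj_el_G_same _ _ _ _ _ _)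
        · exact (hET _ _ .V).2 trivial
        · exact (hET _ _ (.G j.castSucc (z j))).2 (adj_el_G_succ _ _ _ _ _)
        · exact (hET _ _ .V).2 trivial
        · exact (hET _ _ (.G j.castSucc (z j))).2 (adj_el_G_same _ _ _ _ _ _)
        · exact (hET _ _ .V).2 trivial
        · exact (hTE (.G k.castSucc (z k)) _ _).2 (adj_el_G_same _ _ _ _ _ _).symm'
        · exact (hTE (.G k.castSucc (z k)) _ _).2 (adj_el_G_succ _ _ _ _ _).symm'
        · exact (hTE (.G k.castSucc (z k)) _ _).2 (adj_el_G_same _ _ _ _ _ _).symm'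
        · refine (hTT (.G k.castSucc (z k)) (.G j.castSucc (z j))).2 ?_
          intro h
          have : k = j := Fin.ext (by simpa using h)
          rw [this]
        · exact fun h => (hTT (.G k.castSucc (z k)) .V).1 h
        · exact (hTE .V _ _).2 trivial
        · exact (hTE .V _ _).2 trivial
        · exact (hTE .V _ _).2 trivial
        · exact fun h => (hTT .V (.G j.castSucc (z j))).1 h
        · exact (hTT .V .V).2 trivial
  refine hfree (el z t' (Fin.last m) false) (.S t') (.S2 t') (.G (Fin.last m) 0 t') (.V t')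
    (el z t (Fin.last m) false) (.S t) (.S2 t) (.G (Fin.last m) 0 t) (.V t)
    (key_lt_of_kd (by simp [el])) (key_lt_of_kd (by simp)) (key_lt_of_kd (by simp))
    (key_lt_of_kd (by simp))
    (key_lt_of_kd (by simp [el])) (key_lt_of_kd (by simp)) (key_lt_of_kd (by simp))
    (key_lt_of_kd (by simp))
    (hmain _ _ _ _) ?_ ?_ ?_ ?_
    ?_ ?_ ?_ ?_ ?_
    ?_ ?_ ?_ ?_ ?_
    ?_ ?_ ?_ ?_ ?_
    ?_ ?_ ?_ ?_ ?_
  · exact (hET _ _ .S).2 (by simp [el, elT, Adj])
  · exact (hET _ _ .S2).2 (by simp [el, elT, Adj])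
  · exact (hET _ _ (.G (Fin.last m) 0)).2 (adj_el_G_same _ _ _ _ _ _)
  · exact (hET _ _ .V).2 trivial
  · exact (hTE .S _ _).2 (by simp [el, elT, Adj])
  · exact fun h => (hTT .S .S).1 h
  · exact (hTT .S .S2).2 trivial
  · exact (hTT .S (.G (Fin.last m) 0)).2 (by simp [elT, Adj])
  · exact (hTT .S .V).2 trivial
  · exact (hTE .S2 _ _).2 (by simp [el, elT, Adj])
  · exact (hTT .S2 .S).2 trivial
  · exact (hTT .S2 .S2).2 trivial
  · exact (hTT .S2 (.G (Fin.last m) 0)).2 (by simp [elT, Adj])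
  · exact (hTT .S2 .V).2 trivial
  · exact (hTE (.G (Fin.last m) 0) _ _).2 (adj_el_G_same _ _ _ _ _ _).symm'
  · exact (hTT (.G (Fin.last m) 0) .S).2 (by simp [elT, Adj])
  · exact (hTT (.G (Fin.last m) 0) .S2).2 (by simp [elT, Adj])
  · exact (hTT (.G (Fin.last m) 0) (.G (Fin.last m) 0)).2 (by simp [elT, Adj])
  · exact fun h => (hTT (.G (Fin.last m) 0) .V).1 h
  · exact (hTE .V _ _).2 trivial
  · exact (hTT .V .S).2 trivial
  · exact (hTT .V .S2).2 trivial
  · exact fun h => (hTT .V (.G (Fin.last m) 0)).1 h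
  · exact (hTT .V .V).2 trivial

end Vale.Agent.P037h10
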