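import Mathlib.Order.PiLex
import Mathlib.Data.Prod.Lex
import Mathlib.Tactic

namespace Vale.Agent.P037h10

abbrev Pos (m b : ℕ) : Type := Fin m → Fin (b + 2)

inductive Idx (m b : ℕ) : Type
  | N (x : Pos m b) (j : Fin (m + 1)) : Idx m b
  | S (t : Pos m b) : Idx m b
  | S2 (t : Pos m b) : Idx m b
  | G (l : Fin (m + 1)) (s : Fin (b + 2)) (t : Pos m b) : Idx m b
  | V (t : Pos m b) : Idx m b

variable {m b : ℕ}

def dg (x : Pos m b) (i : ℕ) : ℕ := if h : i < m then (x ⟨i, h⟩ : ℕ) else 0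

def Adj : Idx m b → Idx m b → Prop
  | .N x j, .N y k => ∀ i, i < (j : ℕ) → i < (k : ℕ) → dg x i = dg y i
  | .N _ j, .S _ => (j : ℕ) = m
  | .N _ j, .S2 _ => (j : ℕ) = m
  | .S _, .N _ j => (j : ℕ) = m
  | .S2 _, .N _ j => (j : ℕ) = m
  | .S _, .S _ => False
  | .S _, .S2 _ => True
  | .S2 _, .S _ => True
  | .S2 _, .S2 _ => True
  | .N x j, .G l s _ => (j : ℕ) = l ∨ ((j : ℕ) = l + 1 ∧ dg x l = s)
  | .G l s _, .N x j => (j : ℕ) = l ∨ ((j : ℕ) = l + 1 ∧ dg x l = s)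
  | .S _, .G l s _ => (l : ℕ) = m ∧ (s : ℕ) = 0
  | .G l s _, .S _ => (l : ℕ) = m ∧ (s : ℕ) = 0
  | .S2 _, .G l s _ => (l : ℕ) = m ∧ (s : ℕ) = 0
  | .G l s _, .S2 _ => (l : ℕ) = m ∧ (s : ℕ) = 0
  | .G l s _, .G l' s' _ => (l : ℕ) = l' → (s : ℕ) = s'
  | .G _ _ _, .V _ => False
  | .V _, .G _ _ _ => False
  | .N _ _, .V _ => True
  | .S _, .V _ => True
  | .S2 _, .V _ => True
  | .V _, .N _ _ => True
  | .V _, .S _ => True
  | .V _, .S2 _ => True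
  | .V _, .V _ => True

theorem Adj.symm' {r c : Idx m b} (h : Adj r c) : Adj c r := by
  cases r <;> cases c <;> simp_all [Adj]

theorem adj_comm (r c : Idx m b) : Adj r c ↔ Adj c r := ⟨Adj.symm', Adj.symm'⟩

def kd : Idx m b → ℕ
  | .N _ _ => 0
  | .S _ => 1
  | .S2 _ => 2
  | .G _ _ _ => 3
  | .V _ => 4

def Conv (r0 r1 r2 : Idx m b) : Prop :=
  ∀ x0 j0 x1 j1 x2 j2, r0 = .N x0 j0 → r1 = .N x1 j1 → r2 = .N x2 j2 →
    ∀ k, (∀ i, i < k → dg x0 i = dg x2 i) → ∀ i, i < k → dg x0 i = dg x1 i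

@[simp] theorem kdN (x : Pos m b) (j : Fin (m + 1)) : kd (.N x j : Idx m b) = 0 := rfl
@[simp] theorem kdS (t : Pos m b) : kd (.S t : Idx m b) = 1 := rfl
@[simp] theorem kdS2 (t : Pos m b) : kd (.S2 t : Idx m b) = 2 := rfl
@[simp] theorem kdG (l : Fin (m + 1)) (s : Fin (b + 2)) (t : Pos m b) :
    kd (.G l s t : Idx m b) = 3 := rfl
@[simp] theorem kdV (t : Pos m b) : kd (.V t : Idx m b) = 4 := rfl

theorem kd_body {r : Idx m b} (h : kd r ≤ 2) :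
    (∃ x j, r = .N x j) ∨ (∃ t, r = .S t) ∨ (∃ t, r = .S2 t) := by
  cases r <;> simp_all

theorem kd_G {r : Idx m b} (h : kd r = 3) : ∃ l s t, r = .G l s t := by
  cases r <;> simp_all [kd]

theorem kd_V {r : Idx m b} (h : kd r = 4) : ∃ t, r = .V t := by
  cases r <;> simp_all [kd]

theorem kd_le (r : Idx m b) : kd r ≤ 4 := by cases r <;> simp [kd]

theorem kd_N {r : Idx m b} (h : kd r = 0) : ∃ x j, r = .N x j := by
  cases r <;> simp_all [kd]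

end Vale.Agent.P037h10
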