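import Vale.Agent.P037h10.Build

open Finset

namespace Vale.Agent.P037h10

variable {m b q n : ℕ}

theorem Layout.card (L : Layout m b q n) :
    n = (b + 2) ^ m * ((m + 1) * (b + 3) + 3) * q := by
  have := Fintype.card_congr L.ρ
  rw [Fintype.card_fin, Fintype.card_prod, card_idx, Fintype.card_fin] at this
  exact this

theorem exists_layout (m b q : ℕ) : Nonempty (Layout m b q
    ((b + 2) ^ m * ((m + 1) * (b + 3) + 3) * q)) := by
  have hc : Fintype.card (Idx m b × Fin q) = (b + 2) ^ m * ((m + 1) * (b + 3) + 3) * q := by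
    rw [Fintype.card_prod, card_idx, Fintype.card_fin]
  obtain ⟨e, he⟩ := exists_sorted (fun x : Idx m b × Fin q => key false x.1) hc
  obtain ⟨f, hf⟩ := exists_sorted (fun x : Idx m b × Fin q => key true x.1) hc
  exact ⟨⟨e, f, he, hf⟩⟩

theorem Layout.copies_le (L : Layout m b q n) :
    numCopies pattern L.mat ≤ (b + 2) ^ m * q ^ 2 * n ^ 8 := by
  have hinj : Function.Injective
      (fun p : {p : (Fin 5 → Fin n) × (Fin 5 → Fin n) // IsOrderedCopy pattern L.mat p.1 p.2} =>
        (((L.copy_leaf p.2).choose, (L.ρ (p.1.1 0)).2, (L.γ (p.1.2 0)).2,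
          fun i : Fin 4 => p.1.1 i.succ, fun i : Fin 4 => p.1.2 i.succ) :
          Pos m b × Fin q × Fin q × (Fin 4 → Fin n) × (Fin 4 → Fin n))) := by
    rintro ⟨⟨r, c⟩, h⟩ ⟨⟨r', c'⟩, h'⟩ he
    simp only [Prod.mk.injEq] at he
    obtain ⟨h1, h2, h3, h4, h5⟩ := he
    have hs := (L.copy_leaf h).choose_spec
    have hs' := (L.copy_leaf h').choose_spec
    have hr0 : r 0 = r' 0 := by
      apply L.ρ.injective
      apply Prod.ext
      · rw [hs.1, hs'.1, h1]
      · exact h2
    have hc0 : c 0 = c' 0 := by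
      apply L.γ.injective
      apply Prod.ext
      · rw [hs.2, hs'.2, h1]
      · exact h3
    have hr : r = r' := by
      funext i
      refine Fin.cases hr0 (fun j => congrFun h4 j) i
    have hc : c = c' := by
      funext i
      refine Fin.cases hc0 (fun j => congrFun h5 j) i
    subst hr hc
    rfl
  have := Nat.card_le_card_of_injective _ hinj
  refine this.trans (le_of_eq ?_)
  simp only [Nat.card_eq_fintype_card, Fintype.card_prod, Fintype.card_fun, Fintype.card_fin]
  ring

theorem Layout.changes_ge (L : Layout m b q n) {B : Matrix (Fin n) (Fin n) Bool}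
    (hB : numCopies pattern B = 0) :
    b ^ m * (b + 2) ^ m * (b + 2) ^ m * q ^ 2 ≤
      (2 * m + ((m + 1) * (b + 2) + 5)) ^ 2 * ((b + 2) ^ 2 * (b + 2) ^ m *
        numChanges L.mat B) := by
  classical
  let δ : Fin q → Fin q → Idx m b → Idx m b → ℕ := fun u w r c =>
    if L.mat (L.ρ.symm (r, u)) (L.γ.symm (c, w)) ≠ B (L.ρ.symm (r, u)) (L.γ.symm (c, w))
      then 1 else 0
  let Δ : Idx m b → Idx m b → ℕ := fun r c => ∑ u, ∑ w, δ u w r c
  have hsum : ∑ r, ∑ c, Δ r c = numChanges L.mat B := by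
    have h1 : numChanges L.mat B =
        ∑ i : Fin n, ∑ j : Fin n, (if L.mat i j ≠ B i j then 1 else 0) := by
      unfold numChanges
      rw [Nat.card_eq_fintype_card, Fintype.card_subtype, Finset.card_filter,
        Fintype.sum_prod_type]
    rw [h1, ← Equiv.sum_comp L.ρ.symm]
    simp_rw [← Equiv.sum_comp L.γ.symm]
    simp only [Fintype.sum_prod_type]
    refine Finset.sum_congr rfl fun r _ => ?_
    have e1 : ∑ c, Δ r c = ∑ u, ∑ c, ∑ w, δ u w r c := by
      simp only [Δ]
      rw [Finset.sum_comm]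
    rw [e1]
  have hall : ∀ (z : Fin m → Fin b) (t' t : Pos m b),
      q ^ 2 ≤ (∑ js : Fin m × Bool, ∑ κ : TRole m b, Δ (chainEl (emb z) js.1 js.2) (elT t κ)) +
        (∑ js : Fin m × Bool, ∑ κ : TRole m b, Δ (elT t' κ) (chainEl (emb z) js.1 js.2)) +
        ∑ ρ : TRole m b, ∑ κ : TRole m b, Δ (elT t' ρ) (elT t κ) := by
    intro z t' t
    have hone : ∀ u w : Fin q, 1 ≤
        (∑ js : Fin m × Bool, ∑ κ : TRole m b, δ u w (chainEl (emb z) js.1 js.2) (elT t κ)) +
        (∑ js : Fin m × Bool, ∑ κ : TRole m b, δ u w (elT t' κ) (chainEl (emb z) js.1 js.2)) +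
        ∑ ρ : TRole m b, ∑ κ : TRole m b, δ u w (elT t' ρ) (elT t κ) := by
      intro u w
      by_contra hcon
      have h0 : (∑ js : Fin m × Bool, ∑ κ : TRole m b,
            δ u w (chainEl (emb z) js.1 js.2) (elT t κ)) = 0 ∧
          (∑ js : Fin m × Bool, ∑ κ : TRole m b,
            δ u w (elT t' κ) (chainEl (emb z) js.1 js.2)) = 0 ∧
          (∑ ρ : TRole m b, ∑ κ : TRole m b, δ u w (elT t' ρ) (elT t κ)) = 0 := by
        omega
      obtain ⟨h1, h2, h3⟩ := h0
      simp only [Finset.sum_eq_zero_iff, Finset.mem_univ, true_implies] at h1 h2 h3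
      have hδ : ∀ r c, δ u w r c = 0 →
          (B (L.ρ.symm (r, u)) (L.γ.symm (c, w)) = true ↔ Adj r c) := by
        intro r c h
        simp only [δ, ite_eq_right_iff, one_ne_zero, imp_false, not_not] at h
        rw [← h, L.mat_iff]
        simp
      exact forced (L.hfree5 hB u w) (z := emb z) (t' := t') (t := t) (emb_mid z)
        (fun j sd κ => hδ _ _ (h1 (j, sd) κ)) (fun ρ j sd => hδ _ _ (h2 (j, sd) ρ))
        (fun ρ κ => hδ _ _ (h3 ρ κ))
    have hq : q ^ 2 = ∑ _u : Fin q, ∑ _w : Fin q, 1 := by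
      simp [sq]
    rw [hq]
    refine (Finset.sum_le_sum fun u _ => Finset.sum_le_sum fun w _ => hone u w).trans ?_
    simp only [Finset.sum_add_distrib]
    have swap : ∀ {J K : Type} [Fintype J] [Fintype K] (f : J → K → Idx m b)
        (g : J → K → Idx m b), ∑ u, ∑ w, ∑ j, ∑ k, δ u w (f j k) (g j k) =
        ∑ j, ∑ k, Δ (f j k) (g j k) := by
      intro J K _ _ f g
      have e1 : ∀ u, ∑ w, ∑ j, ∑ k, δ u w (f j k) (g j k) =
          ∑ j, ∑ k, ∑ w, δ u w (f j k) (g j k) := by
        intro u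
        rw [Finset.sum_comm]
        exact Finset.sum_congr rfl fun j _ => Finset.sum_comm
      simp only [e1]
      rw [Finset.sum_comm]
      exact Finset.sum_congr rfl fun j _ => Finset.sum_comm
    rw [swap (fun (js : Fin m × Bool) (_ : TRole m b) => chainEl (emb z) js.1 js.2)
        (fun _ κ => elT t κ),
      swap (fun (_ : Fin m × Bool) (κ : TRole m b) => elT t' κ)
        (fun js _ => chainEl (emb z) js.1 js.2),
      swap (fun (ρ _ : TRole m b) => elT t' ρ) (fun _ κ => elT t κ)]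
  have := count_main Δ (q ^ 2) hall
  rwa [hsum] at this

end Vale.Agent.P037h10
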