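import Vale.Agent.P037h10.Idx

namespace Vale.Agent.P037h10

variable {m b : ℕ}

theorem lex_conv {x y w : Pos m b} (h1 : toLex x ≤ toLex y) (h2 : toLex y ≤ toLex w) (k : ℕ)
    (h : ∀ i, i < k → dg x i = dg w i) : ∀ i, i < k → dg x i = dg y i := by
  have key : ∀ (n : ℕ) (hn : n < m), n < k → x ⟨n, hn⟩ = y ⟨n, hn⟩ := by
    intro n
    induction n using Nat.strong_induction_on with
    | _ n ih =>
      intro hn hnk
      have e : ∀ (j : ℕ) (hj : j < m), j < k → x ⟨j, hj⟩ = w ⟨j, hj⟩ := by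
        intro j hj hjk
        have := h j hjk
        simp only [dg, hj, dif_pos] at this
        exact Fin.ext this
      have h3 : x ⟨n, hn⟩ ≤ y ⟨n, hn⟩ := by
        apply Pi.apply_le_of_toLex h1
        rintro ⟨j, hj⟩ hjn
        exact ih j hjn hj (lt_trans hjn hnk)
      have h4 : y ⟨n, hn⟩ ≤ w ⟨n, hn⟩ := by
        apply Pi.apply_le_of_toLex h2
        rintro ⟨j, hj⟩ hjn
        rw [← ih j hjn hj (lt_trans hjn hnk), e j hj (lt_trans hjn hnk)]
      rw [← e n hn hnk] at h4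
      exact le_antisymm h3 h4
  intro i hi
  by_cases hm : i < m
  · simp only [dg, hm, dif_pos]
    rw [key i hm hi]
  · simp only [dg, hm, dif_neg, not_false_iff]

def posOf : Idx m b → Pos m b
  | .N x _ => x
  | _ => fun _ => 0

def levOf : Idx m b → ℕ
  | .N _ j => j
  | .G l _ _ => l
  | _ => 0

def digOf (rev : Bool) : Idx m b → ℕ
  | .G _ s _ => if rev then b + 1 - s else s
  | _ => 0

abbrev KeyT (m b : ℕ) : Type := ℕ ×ₗ (Lex (Pos m b) ×ₗ (ℕ ×ₗ ℕ))

noncomputable def key (rev : Bool) (r : Idx m b) : KeyT m b :=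
  toLex (kd r, toLex (toLex (posOf r), toLex (levOf r, digOf rev r)))

theorem kd_of_key {rev : Bool} {r r' : Idx m b} (h : key rev r ≤ key rev r') :
    kd r ≤ kd r' := Prod.Lex.monotone_fst _ _ h

theorem key_lt_of_kd {rev : Bool} {r r' : Idx m b} (h : kd r < kd r') :
    key rev r < key rev r' := by
  unfold key
  rw [Prod.Lex.toLex_lt_toLex]
  exact Or.inl h

theorem key_N_lt {rev : Bool} {x y : Pos m b} {j k : Fin (m + 1)} (h : toLex x < toLex y) :
    key rev (.N x j) < key rev (.N y k) := by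
  unfold key
  rw [Prod.Lex.toLex_lt_toLex]
  right
  refine ⟨rfl, ?_⟩
  rw [Prod.Lex.toLex_lt_toLex]
  exact Or.inl h

theorem pos_le_of_key {rev : Bool} {x y : Pos m b} {j k : Fin (m + 1)}
    (h : key rev (.N x j) ≤ key rev (.N y k)) : toLex x ≤ toLex y := by
  unfold key at h
  rw [Prod.Lex.toLex_le_toLex] at h
  rcases h with h | ⟨-, h⟩
  · exact absurd h (lt_irrefl _)
  · exact Prod.Lex.monotone_fst _ _ h

theorem conv_of_key {rev : Bool} {r0 r1 r2 : Idx m b} (h1 : key rev r0 ≤ key rev r1)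
    (h2 : key rev r1 ≤ key rev r2) : Conv r0 r1 r2 := by
  rintro x0 j0 x1 j1 x2 j2 rfl rfl rfl k h
  exact lex_conv (pos_le_of_key h1) (pos_le_of_key h2) k h

theorem G_of_key {rev : Bool} {l l' : Fin (m + 1)} {s s' : Fin (b + 2)} {t t' : Pos m b}
    (h : key rev (.G l s t) ≤ key rev (.G l' s' t')) :
    (l : ℕ) < l' ∨ ((l : ℕ) = l' ∧ digOf rev (.G l s t : Idx m b) ≤
      digOf rev (.G l' s' t' : Idx m b)) := by
  unfold key at h
  rw [Prod.Lex.toLex_le_toLex] at h
  rcases h with h | ⟨-, h⟩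
  · exact absurd h (lt_irrefl _)
  · change toLex (toLex (posOf (.G l s t : Idx m b)), toLex (levOf (.G l s t : Idx m b),
      digOf rev (.G l s t : Idx m b))) ≤ toLex (toLex (posOf (.G l' s' t' : Idx m b)),
      toLex (levOf (.G l' s' t' : Idx m b), digOf rev (.G l' s' t' : Idx m b))) at h
    rw [Prod.Lex.toLex_le_toLex] at h
    rcases h with h | ⟨-, h⟩
    · exact absurd h (lt_irrefl _)
    · change toLex (levOf (.G l s t : Idx m b), digOf rev (.G l s t : Idx m b)) ≤
        toLex (levOf (.G l' s' t' : Idx m b), digOf rev (.G l' s' t' : Idx m b)) at h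
      rw [Prod.Lex.toLex_le_toLex] at h
      exact h

theorem G_of_key_false {l l' : Fin (m + 1)} {s s' : Fin (b + 2)} {t t' : Pos m b}
    (h : key false (.G l s t) ≤ key false (.G l' s' t')) :
    (l : ℕ) < l' ∨ ((l : ℕ) = l' ∧ (s : ℕ) ≤ s') := by
  simpa [digOf] using G_of_key h

theorem G_of_key_true {l l' : Fin (m + 1)} {s s' : Fin (b + 2)} {t t' : Pos m b}
    (h : key true (.G l s t) ≤ key true (.G l' s' t')) :
    (l : ℕ) < l' ∨ ((l : ℕ) = l' ∧ (s' : ℕ) ≤ s) := by
  have h1 := G_of_key h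
  simp only [digOf, if_true] at h1
  have := s.2
  have := s'.2
  omega

end Vale.Agent.P037h10
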